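import Mathlib

/-!
# Conjugate subgroups and factors of a finite-index product: definitions
-/

namespace Vale.Agent.P002.R2.H53

variable {G : Type*} [Group G]

/-- the subgroups `H` and `H'` of `G` are conjugate in `G` -/
def AreConj (H H' : Subgroup G) : Prop :=
  ∃ g : G, ∀ x : G, x ∈ H' ↔ g * x * g⁻¹ ∈ H

/-- For an isomorphism `e` of the subgroup `A` of `G` onto a product of groups `P i`: the `i`-th
factor of `A`, as a subgroup of `G`. -/
def Factor {I : Type*} {P : I → Type*} [∀ i, Group (P i)] {A : Subgroup G}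
    (e : A ≃* (∀ i, P i)) (i : I) : Subgroup G where
  carrier := {x | ∃ h : x ∈ A, ∀ j, j ≠ i → e ⟨x, h⟩ j = 1}
  mul_mem' := by
    rintro x y ⟨hx, hx'⟩ ⟨hy, hy'⟩
    refine ⟨A.mul_mem hx hy, fun j hj => ?_⟩
    have h : (⟨x * y, A.mul_mem hx hy⟩ : A) = ⟨x, hx⟩ * ⟨y, hy⟩ := rfl
    rw [h, map_mul, Pi.mul_apply, hx' j hj, hy' j hj, one_mul]
  one_mem' := by
    refine ⟨A.one_mem, fun j _ => ?_⟩
    have h : (⟨1, A.one_mem⟩ : A) = 1 := rfl
    rw [h, map_one, Pi.one_apply]
  inv_mem' := by
    rintro x ⟨hx, hx'⟩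
    refine ⟨A.inv_mem hx, fun j hj => ?_⟩
    have h : (⟨x⁻¹, A.inv_mem hx⟩ : A) = ⟨x, hx⟩⁻¹ := rfl
    rw [h, map_inv, Pi.inv_apply, hx' j hj, inv_one]

/-- Every complex representation `σ` of `Γ` of dimension less than `c` has virtually solvable image:
for some subgroup `B` of finite index some term of the derived series of `B` acts trivially. -/
def SmallRepsVS (Γ : Type) [Group Γ] (c : ℕ) : Prop :=
  ∀ (M : Type) [AddCommGroup M] [Module ℂ M] [FiniteDimensional ℂ M] (σ : Γ →* Module.End ℂ M),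
    Module.finrank ℂ M < c → ∃ B : Subgroup Γ, B.FiniteIndex ∧
      ∃ m : ℕ, ∀ x ∈ (derivedSeries B m).map B.subtype, σ x = 1

/-- The condition on the subgroup `H i` of `G` and the rank `r`: for some `c` and `n` with
`r < c * n`, all complex representations of `H i` of dimension less than `c` have virtually solvable
image (this always holds for `c = 2`), and at least `n` of the subgroups `H j` are conjugate to
`H i` in `G`. -/
def RankBound {G : Type} [Group G] {I : Type} (H : I → Subgroup G) (r : ℕ) (i : I) : Prop :=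
  ∃ c n : ℕ, r < c * n ∧ SmallRepsVS (H i) c ∧ n ≤ Nat.card {j // AreConj (H i) (H j)}

end Vale.Agent.P002.R2.H53
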