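import Vale.Agent.P002.R2.H53.Defs
import Vale.Agent.P002.H252.DefsC

/-!
# Small constituents: definition
-/

namespace Vale.Agent.P002.R2.H53

open Matrix Vale.Agent.P002R.Orb Vale.Agent.P002.H2 Vale.Agent.P002.H252

variable {ι : Type} {r s : ℕ}

/-- The subspace `W` is small: there are a family `O` of maps to orbifold groups of curves for which
the `w j` are peripheral, a subgroup `A` of finite index of its common kernel `O.K`, and pairwise
commuting subgroups `H i`, `i` in a finite set, which satisfy `RankBound` for the dimension of `W`,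
such that some term of the derived series of `A` lies in the subgroup generated by the `H i`. -/
def IsSmall (R : Set (FreeGroup ι)) (w : Fin s → FreeGroup ι)
    (W : Submodule ℂ (Fin r → ℂ)) : Prop :=
  ∃ (O : OrbFamily (PresentedGroup R)) (A : Subgroup (PresentedGroup R)) (I : Type) (_ : Finite I)
    (H : I → Subgroup (PresentedGroup R)) (k : ℕ),
    (∀ j, O.IsPeripheral (PresentedGroup.mk R (w j))) ∧ A ≤ O.K ∧ A.relIndex O.K ≠ 0 ∧
    (∀ i j, i ≠ j → ∀ x ∈ H i, ∀ y ∈ H j, x * y = y * x) ∧
    (derivedSeries A k).map A.subtype ≤ ⨆ i, H i ∧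
    ∀ i, RankBound H (Module.finrank ℂ W) i

/-- Every irreducible subrepresentation of `X` is small or has one of the types allowed in
`IsTyped`. -/
def IsTypedOrSmall (R : Set (FreeGroup ι)) (w : Fin s → FreeGroup ι)
    (X : ι → SpecialLinearGroup (Fin r) ℂ) : Prop :=
  ∀ W, IsIrrSub X W → IsSmall R w W ∨ ∃ D : TypeDatum (PresentedGroup R),
    D.Valid (fun j => PresentedGroup.mk R (w j)) ∧ HasType D X W

end Vale.Agent.P002.R2.H53
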