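import Mathlib

/-!
Two lemmas on solvable groups.
-/

namespace Vale.Agent.P002.R2.H53

theorem sup_solvable {G : Type*} [Group G] {I : Type*} [Finite I] (B : I → Subgroup G)
    (hc : ∀ i j, i ≠ j → ∀ x ∈ B i, ∀ y ∈ B j, x * y = y * x)
    (hs : ∀ i, Group.IsSolvable (B i)) : Group.IsSolvable (⨆ i, B i : Subgroup G) := by
  classical
  obtain ⟨_⟩ := nonempty_fintype I
  have hcomm : Pairwise fun i j : I => ∀ x y : G, x ∈ B i → y ∈ B j → Commute x y :=
    fun i j hij x y hx hy => hc i j hij x hx y hy
  choose m hm using fun i => (hs i).solvable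
  have hpi : Group.IsSolvable (∀ i, B i) := by
    refine ⟨Finset.univ.sup m, ?_⟩
    rw [eq_bot_iff]
    intro x hx
    rw [Subgroup.mem_bot]
    funext i
    have h1 : Pi.evalMonoidHom (fun i => B i) i x ∈ derivedSeries (B i) (Finset.univ.sup m) :=
      map_derivedSeries_le_derivedSeries (Pi.evalMonoidHom (fun i => B i) i)
        (Finset.univ.sup m) (Subgroup.mem_map_of_mem _ hx)
    have h2 := derivedSeries_antitone (B i) (Finset.le_sup (f := m) (Finset.mem_univ i)) h1
    rw [hm i, Subgroup.mem_bot] at h2
    exact h2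
  have hr := Subgroup.noncommPiCoprod_range (H := B) (hcomm := hcomm)
  have h3 : Group.IsSolvable (Subgroup.noncommPiCoprod hcomm).range :=
    Group.isSolvable_of_surjective
      (f := (Subgroup.noncommPiCoprod hcomm).rangeRestrict)
      (MonoidHom.rangeRestrict_surjective _)
  rw [← hr]
  exact h3

theorem ext_solvable {G : Type*} [Group G] (E S : Subgroup G) (hS : Group.IsSolvable S) (k : ℕ)
    (h : (derivedSeries E k).map E.subtype ≤ S) : Group.IsSolvable E := by
  obtain ⟨m, hm⟩ := hS.solvable
  have h1 : ∀ j, (derivedSeries E (k + j)).map E.subtype ≤ (derivedSeries S j).map S.subtype := by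
    intro j
    induction j with
    | zero =>
      rw [derivedSeries_zero, ← MonoidHom.range_eq_map, Subgroup.range_subtype]
      exact h
    | succ j ih =>
      rw [← add_assoc, derivedSeries_succ, derivedSeries_succ, Subgroup.map_commutator,
        Subgroup.map_commutator]
      exact Subgroup.commutator_mono ih ih
  refine ⟨k + m, ?_⟩
  have h2 := h1 m
  rw [hm, Subgroup.map_bot, le_bot_iff, Subgroup.map_eq_bot_iff, Subgroup.ker_subtype,
    le_bot_iff] at h2
  exact h2

end Vale.Agent.P002.R2.H53
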