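import Mathlib

/-!
# Commuting nonsolvable linear groups

Over an algebraically closed field, `n` pairwise commuting nonsolvable subgroups of `GL(V)` force
`dim V ≥ 2 n`.
-/

namespace Vale.Agent.P002.R2.H53

open Module commutatorElement

universe u v w

section defs

variable {G : Type w} [Group G]

/-- the iterated commutator subgroups of `H`, inside `G` -/
def Dr (H : Subgroup G) : ℕ → Subgroup G
  | 0 => H
  | m + 1 => ⁅Dr H m, Dr H m⁆

theorem comm_le (A : Subgroup G) : ⁅A, A⁆ ≤ A :=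
  Subgroup.commutator_le.2 fun a ha b hb => by
    rw [commutatorElement_def]
    exact A.mul_mem (A.mul_mem (A.mul_mem ha hb) (A.inv_mem ha)) (A.inv_mem hb)

theorem Dr_succ_le (H : Subgroup G) (m : ℕ) : Dr H (m + 1) ≤ Dr H m := comm_le _

theorem Dr_anti (H : Subgroup G) {m m' : ℕ} (h : m ≤ m') : Dr H m' ≤ Dr H m := by
  induction h with
  | refl => exact le_rfl
  | step _ ih => exact (Dr_succ_le H _).trans ih

theorem Dr_le (H : Subgroup G) (m : ℕ) : Dr H m ≤ H := Dr_anti H (Nat.zero_le m)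

theorem Dr_map {G' : Type*} [Group G'] (f : G →* G') (H : Subgroup G) (m : ℕ) :
    Dr (H.map f) m = (Dr H m).map f := by
  induction m with
  | zero => rfl
  | succ m ih => rw [Dr, Dr, Subgroup.map_commutator, ih]

theorem Dr_mono {H H' : Subgroup G} (h : H ≤ H') (m : ℕ) : Dr H m ≤ Dr H' m := by
  induction m with
  | zero => exact h
  | succ m ih => exact Subgroup.commutator_mono ih ih

theorem Dr_conj (H : Subgroup G) (m : ℕ) {h x : G} (hh : h ∈ H) (hx : x ∈ Dr H m) :
    h * x * h⁻¹ ∈ Dr H m := by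
  have h1 : H.map (MulAut.conj h).toMonoidHom ≤ H := by
    rintro _ ⟨y, hy, rfl⟩
    exact H.mul_mem (H.mul_mem hh hy) (H.inv_mem hh)
  have h2 := Dr_mono h1 m
  rw [Dr_map] at h2
  exact h2 ⟨x, hx, rfl⟩

theorem Dr_derived (H : Subgroup G) (m : ℕ) : (derivedSeries H m).map H.subtype = Dr H m := by
  induction m with
  | zero => rw [derivedSeries_zero, ← MonoidHom.range_eq_map, Subgroup.range_subtype]; rfl
  | succ m ih => rw [derivedSeries_succ, Subgroup.map_commutator, ih]; rfl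

end defs

variable {K : Type u} {V : Type v} {G : Type w} [Field K] [AddCommGroup V] [Module K V] [Group G]

/-- `x` acts trivially on `W2 / W1` -/
def Triv (ρ : G →* End K V) (x : G) (W1 W2 : Submodule K V) : Prop :=
  ∀ v ∈ W2, ρ x v - v ∈ W1

/-- the image of `H` in the automorphisms of `W2 / W1` is solvable -/
def Sol (ρ : G →* End K V) (H : Subgroup G) (W1 W2 : Submodule K V) : Prop :=
  ∃ m, ∀ x ∈ Dr H m, Triv ρ x W1 W2

/-- `W` is stable under `H` -/
def Stb (ρ : G →* End K V) (H : Subgroup G) (W : Submodule K V) : Prop :=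
  ∀ x ∈ H, ∀ v ∈ W, ρ x v ∈ W

theorem rho_mul (ρ : G →* End K V) (x y : G) (v : V) : ρ (x * y) v = ρ x (ρ y v) := by
  rw [map_mul]; rfl

theorem rho_inv (ρ : G →* End K V) (x : G) (v : V) : ρ x (ρ x⁻¹ v) = v := by
  rw [← rho_mul, mul_inv_cancel, map_one]; rfl

theorem rho_inv' (ρ : G →* End K V) (x : G) (v : V) : ρ x⁻¹ (ρ x v) = v := by
  rw [← rho_mul, inv_mul_cancel, map_one]; rfl

/-- the elements of `H` acting trivially on `W2 / W1` -/
def TS (ρ : G →* End K V) (H : Subgroup G) (W1 W2 : Submodule K V) (h1 : Stb ρ H W1)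
    (h2 : Stb ρ H W2) : Subgroup G where
  carrier := {x | x ∈ H ∧ Triv ρ x W1 W2}
  mul_mem' := by
    rintro x y ⟨hx, hx'⟩ ⟨hy, hy'⟩
    refine ⟨H.mul_mem hx hy, fun v hv => ?_⟩
    have h : ρ (x * y) v - v = ρ x (ρ y v - v) + (ρ x v - v) := by
      rw [rho_mul, map_sub]; abel
    rw [h]
    exact W1.add_mem (h1 x hx _ (hy' v hv)) (hx' v hv)
  one_mem' := ⟨H.one_mem, fun v hv => by rw [map_one]; simp⟩
  inv_mem' := by
    rintro x ⟨hx, hx'⟩
    refine ⟨H.inv_mem hx, fun v hv => ?_⟩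
    have h : ρ x⁻¹ v - v = - (ρ x⁻¹ (ρ x v - v)) := by
      rw [map_sub, rho_inv']; abel
    rw [h]
    exact W1.neg_mem (h1 _ (H.inv_mem hx) _ (hx' v hv))

/-- the key computation for commutators -/
theorem comm_triv (ρ : G →* End K V) {H : Subgroup G} {W1 W2 : Submodule K V}
    (h2 : Stb ρ H W2) {a b : G} (ha : a ∈ H) (hb : b ∈ H)
    (h : ∀ u ∈ W2, ρ a (ρ b u) - ρ b (ρ a u) ∈ W1) : Triv ρ ⁅a, b⁆ W1 W2 := by
  intro v hv
  have hu : ρ a⁻¹ (ρ b⁻¹ v) ∈ W2 := h2 _ (H.inv_mem ha) _ (h2 _ (H.inv_mem hb) _ hv)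
  have h3 := h _ hu
  rw [rho_inv, rho_inv] at h3
  rw [commutatorElement_def, rho_mul, rho_mul, rho_mul]
  exact h3

theorem dr_triv (ρ : G →* End K V) {H : Subgroup G} {W1 W2 : Submodule K V} (h1 : Stb ρ H W1)
    (h2 : Stb ρ H W2) (m : ℕ)
    (h : ∀ a ∈ Dr H m, ∀ b ∈ Dr H m, ∀ u ∈ W2, ρ a (ρ b u) - ρ b (ρ a u) ∈ W1) :
    ∀ x ∈ Dr H (m + 1), Triv ρ x W1 W2 := by
  have h3 : Dr H (m + 1) ≤ TS ρ H W1 W2 h1 h2 :=
    Subgroup.commutator_le.2 fun a ha b hb =>
      ⟨Dr_le H (m + 1) (Subgroup.commutator_mem_commutator ha hb),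
        comm_triv ρ h2 (Dr_le H m ha) (Dr_le H m hb) (h a ha b hb)⟩
  exact fun x hx => (h3 hx).2

theorem sol_trans (ρ : G →* End K V) {H : Subgroup G} {W1 W W2 : Submodule K V}
    (h1 : Stb ρ H W1) (h2 : Stb ρ H W2) (hW : W ≤ W2)
    (s1 : Sol ρ H W1 W) (s2 : Sol ρ H W W2) : Sol ρ H W1 W2 := by
  obtain ⟨m1, s1⟩ := s1
  obtain ⟨m2, s2⟩ := s2
  refine ⟨max m1 m2 + 1, dr_triv ρ h1 h2 _ fun a ha b hb u hu => ?_⟩
  have ha1 := s1 a (Dr_anti H (le_max_left m1 m2) ha)
  have ha2 := s2 a (Dr_anti H (le_max_right m1 m2) ha)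
  have hb1 := s1 b (Dr_anti H (le_max_left m1 m2) hb)
  have hb2 := s2 b (Dr_anti H (le_max_right m1 m2) hb)
  have h : ρ a (ρ b u) - ρ b (ρ a u) =
      (ρ a (ρ b u - u) - (ρ b u - u)) - (ρ b (ρ a u - u) - (ρ a u - u)) := by
    rw [map_sub, map_sub]; abel
  rw [h]
  exact W1.sub_mem (ha1 _ (hb2 u hu)) (hb1 _ (ha2 u hu))

theorem sol_of_scalar (ρ : G →* End K V) {H : Subgroup G} {W1 W2 : Submodule K V}
    (h1 : Stb ρ H W1) (h2 : Stb ρ H W2)
    (h : ∀ x ∈ H, ∃ c : K, ∀ v ∈ W2, ρ x v - c • v ∈ W1) : Sol ρ H W1 W2 := by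
  refine ⟨1, dr_triv ρ h1 h2 0 fun a ha b hb u hu => ?_⟩
  obtain ⟨c, hc⟩ := h a ha
  obtain ⟨d, hd⟩ := h b hb
  have h : ρ a (ρ b u) - ρ b (ρ a u) =
      (ρ a (ρ b u - d • u) + d • (ρ a u - c • u)) -
        (ρ b (ρ a u - c • u) + c • (ρ b u - d • u)) := by
    simp only [map_sub, map_smul, smul_sub, smul_comm c d u]
    abel
  rw [h]
  exact W1.sub_mem (W1.add_mem (h1 a ha _ (hd u hu)) (W1.smul_mem _ (hc u hu)))
    (W1.add_mem (h1 b hb _ (hc u hu)) (W1.smul_mem _ (hd u hu)))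

theorem sol_of_dim (ρ : G →* End K V) [FiniteDimensional K V] {H : Subgroup G}
    {W1 W2 : Submodule K V} (h12 : W1 ≤ W2) (h1 : Stb ρ H W1) (h2 : Stb ρ H W2)
    (hd : finrank K W2 ≤ finrank K W1 + 1) : Sol ρ H W1 W2 := by
  refine sol_of_scalar ρ h1 h2 fun x hx => ?_
  rcases eq_or_lt_of_le h12 with h | h
  · exact ⟨0, fun v hv => by rw [zero_smul, sub_zero, h]; exact h2 x hx v hv⟩
  obtain ⟨v0, hv0, hv1⟩ := SetLike.exists_of_lt h
  have h3 : W1 ⊔ K ∙ v0 = W2 := by
    refine Submodule.eq_of_le_of_finrank_le (sup_le h12 ?_) ?_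
    · rw [Submodule.span_singleton_le_iff_mem]; exact hv0
    · refine hd.trans ?_
      have h4 : W1 < W1 ⊔ K ∙ v0 := by
        refine lt_of_le_of_ne le_sup_left fun h5 => hv1 ?_
        rw [h5]
        exact Submodule.mem_sup_right (Submodule.mem_span_singleton_self v0)
      exact Submodule.finrank_lt_finrank_of_lt h4
  have h4 := h2 x hx v0 hv0
  rw [← h3, Submodule.mem_sup] at h4
  obtain ⟨w, hw, z, hz, hwz⟩ := h4
  obtain ⟨c, rfl⟩ := Submodule.mem_span_singleton.1 hz
  refine ⟨c, fun v hv => ?_⟩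
  rw [← h3, Submodule.mem_sup] at hv
  obtain ⟨w', hw', z', hz', rfl⟩ := hv
  obtain ⟨d, rfl⟩ := Submodule.mem_span_singleton.1 hz'
  have h5 : ρ x (w' + d • v0) - c • (w' + d • v0) = ρ x w' + d • w - c • w' := by
    rw [map_add, map_smul, ← hwz, smul_add, smul_add, smul_comm c d v0]; abel
  rw [h5]
  exact W1.sub_mem (W1.add_mem (h1 x hx _ hw') (W1.smul_mem _ hw)) (W1.smul_mem _ hw')

/-- an eigenvector on `W2 / W1` -/
theorem exists_eig [IsAlgClosed K] [FiniteDimensional K V] (f : End K V) {W1 W2 : Submodule K V}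
    (h12 : W1 < W2) (h1 : ∀ v ∈ W1, f v ∈ W1) (h2 : ∀ v ∈ W2, f v ∈ W2) :
    ∃ c : K, ∃ v ∈ W2, v ∉ W1 ∧ f v - c • v ∈ W1 := by
  let g : (V ⧸ W1) →ₗ[K] (V ⧸ W1) := W1.mapQ W1 f fun v hv => h1 v hv
  let U : Submodule K (V ⧸ W1) := W2.map W1.mkQ
  have hU : ∀ u ∈ U, g u ∈ U := by
    rintro _ ⟨v, hv, rfl⟩
    exact ⟨f v, h2 v hv, rfl⟩
  obtain ⟨v0, hv0, hv1⟩ := SetLike.exists_of_lt h12
  have hnt : Nontrivial U := by
    refine ⟨⟨⟨W1.mkQ v0, v0, hv0, rfl⟩, 0, fun h => hv1 ?_⟩⟩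
    have h3 := congrArg Subtype.val h
    exact (Submodule.Quotient.mk_eq_zero W1).1 h3
  obtain ⟨c, hc⟩ := Module.End.exists_eigenvalue (LinearMap.restrict g hU)
  obtain ⟨u, hu⟩ := hc.exists_hasEigenvector
  obtain ⟨v, hv, hvu⟩ := u.2
  refine ⟨c, v, hv, fun h => hu.2 ?_, ?_⟩
  · refine Subtype.ext ?_
    rw [← hvu]
    exact (Submodule.Quotient.mk_eq_zero W1).2 h
  · have h3 := congrArg Subtype.val hu.apply_eq_smul
    rw [LinearMap.coe_restrict_apply, Submodule.coe_smul, ← hvu] at h3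
    rw [← Submodule.Quotient.mk_eq_zero W1, Submodule.Quotient.mk_sub, Submodule.Quotient.mk_smul,
      sub_eq_zero]
    exact h3

/-- sections -/
theorem section_le [IsAlgClosed K] [FiniteDimensional K V] {I : Type*} [DecidableEq I]
    (ρ : G →* End K V) (H : I → Subgroup G)
    (hcomm : ∀ i j, i ≠ j → ∀ x ∈ H i, ∀ y ∈ H j, x * y = y * x) (d : ℕ) :
    ∀ (W1 W2 : Submodule K V) (J : Finset I), finrank K W2 ≤ finrank K W1 + d → W1 ≤ W2 →
      (∀ i ∈ J, Stb ρ (H i) W1) → (∀ i ∈ J, Stb ρ (H i) W2) →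
      (∀ i ∈ J, ¬ Sol ρ (H i) W1 W2) → finrank K W1 + 2 * J.card ≤ finrank K W2 := by
  classical
  induction d using Nat.strong_induction_on with
  | _ d ih =>
  intro W1 W2 J hd h12 s1 s2 hJ
  have key : ∀ (W : Submodule K V) (J1 J2 : Finset I), W1 < W → W < W2 → J1 ⊆ J → J2 ⊆ J →
      (∀ i ∈ J1 ∪ J2, Stb ρ (H i) W) → (∀ i ∈ J1, ¬ Sol ρ (H i) W1 W) →
      (∀ i ∈ J2, ¬ Sol ρ (H i) W W2) →
      finrank K W1 + 2 * (J1.card + J2.card) ≤ finrank K W2 := by
    intro W J1 J2 hW1 hW2 hJ1 hJ2 hs n1 n2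
    have f1 := Submodule.finrank_lt_finrank_of_lt hW1
    have f2 := Submodule.finrank_lt_finrank_of_lt hW2
    have e1 := ih (finrank K W - finrank K W1) (by omega) W1 W J1 (by omega) hW1.le
      (fun i hi => s1 i (hJ1 hi)) (fun i hi => hs i (Finset.mem_union_left _ hi)) n1
    have e2 := ih (finrank K W2 - finrank K W) (by omega) W W2 J2 (by omega) hW2.le
      (fun i hi => hs i (Finset.mem_union_right _ hi)) (fun i hi => s2 i (hJ2 hi)) n2
    omega
  by_cases hex : ∃ W, W1 < W ∧ W < W2 ∧ ∀ i ∈ J, Stb ρ (H i) W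
  · obtain ⟨W, hW1, hW2, hs⟩ := hex
    have h3 := key W (J.filter fun i => ¬ Sol ρ (H i) W1 W) (J.filter fun i => ¬ Sol ρ (H i) W W2)
      hW1 hW2 (Finset.filter_subset _ _) (Finset.filter_subset _ _)
      (fun i hi => hs i (by
        rcases Finset.mem_union.1 hi with h | h <;> exact (Finset.mem_filter.1 h).1))
      (fun i hi => (Finset.mem_filter.1 hi).2) (fun i hi => (Finset.mem_filter.1 hi).2)
    have h4 : J ⊆ (J.filter fun i => ¬ Sol ρ (H i) W1 W) ∪
        (J.filter fun i => ¬ Sol ρ (H i) W W2) := by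
      intro i hi
      rw [Finset.mem_union, Finset.mem_filter, Finset.mem_filter]
      by_contra hcon
      push Not at hcon
      exact hJ i hi (sol_trans ρ (s1 i hi) (s2 i hi) hW2.le (hcon.1 hi) (hcon.2 hi))
    have h5 := (Finset.card_le_card h4).trans (Finset.card_union_le _ _)
    omega
  · rcases J.eq_empty_or_nonempty with rfl | ⟨i, hi⟩
    · simpa using Submodule.finrank_mono h12
    have h2 : finrank K W1 + 2 ≤ finrank K W2 := by
      by_contra hcon
      exact hJ i hi (sol_of_dim ρ h12 (s1 i hi) (s2 i hi) (by omega))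
    by_cases hcard : J.card ≤ 1
    · omega
    have hlt : W1 < W2 := by
      refine lt_of_le_of_ne h12 fun h => ?_
      rw [h] at h2
      omega
    have hns : ∃ x ∈ H i, ∀ c : K, ∃ v ∈ W2, ρ x v - c • v ∉ W1 := by
      by_contra hcon
      push Not at hcon
      exact hJ i hi (sol_of_scalar ρ (s1 i hi) (s2 i hi) hcon)
    obtain ⟨x, hx, hxc⟩ := hns
    obtain ⟨c, v0, hv0, hv1, hv2⟩ := exists_eig (ρ x) hlt (s1 i hi x hx) (s2 i hi x hx)
    let W : Submodule K V :=
      { carrier := {v | v ∈ W2 ∧ ρ x v - c • v ∈ W1}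
        add_mem' := by
          rintro a b ⟨ha, ha'⟩ ⟨hb, hb'⟩
          refine ⟨W2.add_mem ha hb, ?_⟩
          have h : ρ x (a + b) - c • (a + b) = (ρ x a - c • a) + (ρ x b - c • b) := by
            rw [map_add, smul_add]; abel
          rw [h]
          exact W1.add_mem ha' hb'
        zero_mem' := ⟨W2.zero_mem, by simp⟩
        smul_mem' := by
          rintro t a ⟨ha, ha'⟩
          refine ⟨W2.smul_mem t ha, ?_⟩
          have h : ρ x (t • a) - c • (t • a) = t • (ρ x a - c • a) := by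
            rw [map_smul, smul_sub, smul_comm c t a]
          rw [h]
          exact W1.smul_mem t ha' }
    have hW1 : W1 < W := by
      refine lt_of_le_of_ne (fun v hv => ⟨h12 hv, W1.sub_mem (s1 i hi x hx v hv)
        (W1.smul_mem c hv)⟩) fun h => hv1 ?_
      rw [h]
      exact ⟨hv0, hv2⟩
    have hW2 : W < W2 := by
      refine lt_of_le_of_ne (fun v hv => hv.1) fun h => ?_
      obtain ⟨v, hv, hv'⟩ := hxc c
      rw [← h] at hv
      exact hv' hv.2
    have hsW : ∀ j ∈ J.erase i, Stb ρ (H j) W := by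
      intro j hj y hy v hv
      have hji := (Finset.mem_erase.1 hj).1
      have hjJ := (Finset.mem_erase.1 hj).2
      refine ⟨s2 j hjJ y hy v hv.1, ?_⟩
      have h : ρ x (ρ y v) - c • ρ y v = ρ y (ρ x v - c • v) := by
        rw [map_sub, map_smul, ← rho_mul, ← rho_mul, hcomm i j hji.symm x hx y hy]
      rw [h]
      exact s1 j hjJ y hy _ hv.2
    have n1 : ∀ j ∈ J.erase i, ¬ Sol ρ (H j) W1 W := by
      rintro j hj ⟨m, hm⟩
      have hji := (Finset.mem_erase.1 hj).1
      have hjJ := (Finset.mem_erase.1 hj).2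
      let U : Submodule K V :=
        { carrier := {v | v ∈ W2 ∧ ∀ k ∈ Dr (H j) m, ρ k v - v ∈ W1}
          add_mem' := by
            rintro a b ⟨ha, ha'⟩ ⟨hb, hb'⟩
            refine ⟨W2.add_mem ha hb, fun k hk => ?_⟩
            have h : ρ k (a + b) - (a + b) = (ρ k a - a) + (ρ k b - b) := by
              rw [map_add]; abel
            rw [h]
            exact W1.add_mem (ha' k hk) (hb' k hk)
          zero_mem' := ⟨W2.zero_mem, fun k _ => by simp⟩
          smul_mem' := by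
            rintro t a ⟨ha, ha'⟩
            refine ⟨W2.smul_mem t ha, fun k hk => ?_⟩
            have h : ρ k (t • a) - t • a = t • (ρ k a - a) := by
              rw [map_smul, smul_sub]
            rw [h]
            exact W1.smul_mem t (ha' k hk) }
      have hWU : W ≤ U := fun v hv => ⟨hv.1, fun k hk => hm k hk v hv⟩
      have hU2 : U ≤ W2 := fun v hv => hv.1
      have hUs : ∀ l ∈ J, Stb ρ (H l) U := by
        intro l hl y hy v hv
        refine ⟨s2 l hl y hy v hv.1, fun k hk => ?_⟩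
        by_cases hlj : l = j
        · subst hlj
          have hk' : y⁻¹ * k * y ∈ Dr (H l) m := by
            have := Dr_conj (H l) m ((H l).inv_mem hy) hk
            rwa [inv_inv] at this
          have h : ρ k (ρ y v) - ρ y v = ρ y (ρ (y⁻¹ * k * y) v - v) := by
            rw [map_sub, ← rho_mul, ← rho_mul]
            congr 3
            group
          rw [h]
          exact s1 l hl y hy _ (hv.2 _ hk')
        · have h : ρ k (ρ y v) - ρ y v = ρ y (ρ k v - v) := by
            rw [map_sub, ← rho_mul, ← rho_mul,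
              hcomm l j hlj y hy k (Dr_le (H j) m hk)]
          rw [h]
          exact s1 l hl y hy _ (hv.2 k hk)
      have hUeq : U = W2 := by
        by_contra hne
        exact hex ⟨U, lt_of_lt_of_le hW1 hWU, lt_of_le_of_ne hU2 hne, hUs⟩
      refine hJ j hjJ ⟨m, fun k hk v hv => ?_⟩
      rw [← hUeq] at hv
      exact hv.2 k hk
    have n2 : ∀ j ∈ J.erase i, ¬ Sol ρ (H j) W W2 := by
      rintro j hj ⟨m, hm⟩
      have hji := (Finset.mem_erase.1 hj).1
      have hjJ := (Finset.mem_erase.1 hj).2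
      let U : Submodule K V :=
        { carrier := {v | v ∈ W2 ∧ ∀ h ∈ H i, ρ h v ∈ W}
          add_mem' := by
            rintro a b ⟨ha, ha'⟩ ⟨hb, hb'⟩
            refine ⟨W2.add_mem ha hb, fun h hh => ?_⟩
            rw [map_add]
            exact W.add_mem (ha' h hh) (hb' h hh)
          zero_mem' := ⟨W2.zero_mem, fun h _ => by rw [map_zero]; exact W.zero_mem⟩
          smul_mem' := by
            rintro t a ⟨ha, ha'⟩
            refine ⟨W2.smul_mem t ha, fun h hh => ?_⟩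
            rw [map_smul]
            exact W.smul_mem t (ha' h hh) }
      have hU1 : W1 ≤ U := fun v hv => ⟨h12 hv, fun h hh => hW1.le (s1 i hi h hh v hv)⟩
      have hUW : U ≤ W := fun v hv => by
        have := hv.2 1 (H i).one_mem
        rwa [map_one] at this
      have hUs : ∀ l ∈ J, Stb ρ (H l) U := by
        intro l hl y hy v hv
        refine ⟨s2 l hl y hy v hv.1, fun h hh => ?_⟩
        by_cases hli : l = i
        · subst hli
          rw [← rho_mul]
          exact hv.2 _ ((H l).mul_mem hh hy)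
        · rw [← rho_mul, hcomm i l (Ne.symm hli) h hh y hy, rho_mul]
          exact hsW l (Finset.mem_erase.2 ⟨hli, hl⟩) y hy _ (hv.2 h hh)
      have hUeq : W1 = U := by
        by_contra hne
        exact hex ⟨U, lt_of_le_of_ne hU1 hne, lt_of_le_of_lt hUW hW2, hUs⟩
      refine hJ j hjJ ⟨m, fun k hk v hv => ?_⟩
      have hkH := Dr_le (H j) m hk
      rw [hUeq]
      refine ⟨W2.sub_mem (s2 j hjJ k hkH v hv) hv, fun h hh => ?_⟩
      have e : ρ h (ρ k v - v) = ρ k (ρ h v) - ρ h v := by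
        rw [map_sub, ← rho_mul, ← rho_mul, hcomm i j hji.symm h hh k hkH]
      rw [e]
      exact hm k hk _ (s2 i hi h hh v hv)
    have h3 := key W (J.erase i) (J.erase i) hW1 hW2 (Finset.erase_subset _ _)
      (Finset.erase_subset _ _) (fun j hj => hsW j (by simpa using hj)) n1 n2
    rw [Finset.card_erase_of_mem hi] at h3
    omega

/-- Over an algebraically closed field, pairwise commuting nonsolvable linear groups `B i`, `i` in
a finite set `I`, act on a space of dimension at least `2 |I|`. -/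
theorem two_mul_le [IsAlgClosed K] [FiniteDimensional K V] (ρ : G →* End K V)
    (hρ : Function.Injective ρ) {I : Type*} [Finite I] (B : I → Subgroup G)
    (hcomm : ∀ i j, i ≠ j → ∀ x ∈ B i, ∀ y ∈ B j, x * y = y * x)
    (hB : ∀ i, ¬ Group.IsSolvable (B i)) : 2 * Nat.card I ≤ finrank K V := by
  classical
  have := Fintype.ofFinite I
  have h := section_le ρ B hcomm (finrank K V) ⊥ ⊤ Finset.univ (by
      rw [finrank_top]; omega) bot_le
    (fun i _ x _ v hv => by
      rw [Submodule.mem_bot] at hv ⊢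
      rw [hv, map_zero])
    (fun i _ x _ v _ => Submodule.mem_top) (fun i _ => by
      rintro ⟨m, hm⟩
      apply hB i
      refine ⟨⟨m, ?_⟩⟩
      have h1 : Dr (B i) m = ⊥ := by
        rw [Subgroup.eq_bot_iff_forall]
        intro x hx
        apply hρ
        rw [map_one]
        refine LinearMap.ext fun v => ?_
        have h2 := hm x hx v Submodule.mem_top
        rw [Submodule.mem_bot, sub_eq_zero] at h2
        exact h2
      rw [← Dr_derived, Subgroup.map_eq_bot_iff_of_injective _ (B i).subtype_injective] at h1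
      exact h1)
  rw [finrank_bot, finrank_top, Finset.card_univ, ← Nat.card_eq_fintype_card] at h
  omega

end Vale.Agent.P002.R2.H53
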