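import Vale.Agent.P002.R2.H53.Lin

/-!
# Commuting linear groups which are not virtually solvable

Over an algebraically closed field, `n` pairwise commuting subgroups of `GL(V)` which are not
virtually solvable and have no representations of dimension less than `c` of this kind force
`dim V ≥ c n`.
-/

namespace Vale.Agent.P002.R2.H53

open Module commutatorElement

universe u v w

variable {K : Type u} {V : Type v} {G : Type w} [Field K] [AddCommGroup V] [Module K V] [Group G]

theorem Dr_conj' (B : Subgroup G) (m : ℕ) {h x : G} (hh : ∀ y ∈ B, h * y * h⁻¹ ∈ B)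
    (hx : x ∈ Dr B m) : h * x * h⁻¹ ∈ Dr B m := by
  have h1 : B.map (MulAut.conj h).toMonoidHom ≤ B := by
    rintro _ ⟨y, hy, rfl⟩
    exact hh y hy
  have h2 := Dr_mono h1 m
  rw [Dr_map] at h2
  exact h2 ⟨x, hx, rfl⟩

/-- the image of `H` in the automorphisms of `W2 / W1` is virtually solvable -/
def SolV (ρ : G →* End K V) (H : Subgroup G) (W1 W2 : Submodule K V) : Prop :=
  ∃ B : Subgroup G, B ≤ H ∧ B.relIndex H ≠ 0 ∧ (∀ h ∈ H, ∀ x ∈ B, h * x * h⁻¹ ∈ B) ∧
    ∃ m, ∀ x ∈ Dr B m, Triv ρ x W1 W2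

theorem Stb.mono {ρ : G →* End K V} {H B : Subgroup G} {W : Submodule K V} (h : Stb ρ H W)
    (hB : B ≤ H) : Stb ρ B W := fun x hx => h x (hB hx)

theorem solV_trans (ρ : G →* End K V) {H : Subgroup G} {W1 W W2 : Submodule K V}
    (h1 : Stb ρ H W1) (h2 : Stb ρ H W2) 
    (s1 : SolV ρ H W1 W) (s2 : SolV ρ H W W2) : SolV ρ H W1 W2 := by
  obtain ⟨B1, b1, i1, n1, m1, s1⟩ := s1
  obtain ⟨B2, b2, i2, n2, m2, s2⟩ := s2
  refine ⟨B1 ⊓ B2, inf_le_left.trans b1, Subgroup.relIndex_inf_ne_zero i1 i2,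
    fun h hh x hx => ⟨n1 h hh x hx.1, n2 h hh x hx.2⟩, max m1 m2 + 1,
    dr_triv ρ (h1.mono (inf_le_left.trans b1)) (h2.mono (inf_le_left.trans b1)) _
      fun a ha b hb u hu => ?_⟩
  have ha1 := s1 a (Dr_anti B1 (le_max_left m1 m2) (Dr_mono inf_le_left _ ha))
  have ha2 := s2 a (Dr_anti B2 (le_max_right m1 m2) (Dr_mono inf_le_right _ ha))
  have hb1 := s1 b (Dr_anti B1 (le_max_left m1 m2) (Dr_mono inf_le_left _ hb))
  have hb2 := s2 b (Dr_anti B2 (le_max_right m1 m2) (Dr_mono inf_le_right _ hb))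
  have h : ρ a (ρ b u) - ρ b (ρ a u) =
      (ρ a (ρ b u - u) - (ρ b u - u)) - (ρ b (ρ a u - u) - (ρ a u - u)) := by
    rw [map_sub, map_sub]; abel
  rw [h]
  exact W1.sub_mem (ha1 _ (hb2 u hu)) (hb1 _ (ha2 u hu))

theorem solV_of_scalar (ρ : G →* End K V) {H : Subgroup G} {W1 W2 : Submodule K V}
    (h1 : Stb ρ H W1) (h2 : Stb ρ H W2)
    (h : ∀ x ∈ H, ∃ c : K, ∀ v ∈ W2, ρ x v - c • v ∈ W1) : SolV ρ H W1 W2 := by
  obtain ⟨m, hm⟩ := sol_of_scalar ρ h1 h2 h
  exact ⟨H, le_rfl, by rw [Subgroup.relIndex_self]; exact one_ne_zero,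
    fun h hh x hx => H.mul_mem (H.mul_mem hh hx) (H.inv_mem hh), m, hm⟩

/-- sections -/
theorem section_leV [IsAlgClosed K] [FiniteDimensional K V] {I : Type*} [DecidableEq I]
    (ρ : G →* End K V) (H : I → Subgroup G) (c : ℕ)
    (hcomm : ∀ i j, i ≠ j → ∀ x ∈ H i, ∀ y ∈ H j, x * y = y * x)
    (hsmall : ∀ i (W1 W2 : Submodule K V), W1 ≤ W2 → Stb ρ (H i) W1 → Stb ρ (H i) W2 →
      finrank K W2 < finrank K W1 + c → SolV ρ (H i) W1 W2) (d : ℕ) :
    ∀ (W1 W2 : Submodule K V) (J : Finset I), finrank K W2 ≤ finrank K W1 + d → W1 ≤ W2 →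
      (∀ i ∈ J, Stb ρ (H i) W1) → (∀ i ∈ J, Stb ρ (H i) W2) →
      (∀ i ∈ J, ¬ SolV ρ (H i) W1 W2) → finrank K W1 + c * J.card ≤ finrank K W2 := by
  classical
  induction d using Nat.strong_induction_on with
  | _ d ih =>
  intro W1 W2 J hd h12 s1 s2 hJ
  have key : ∀ (W : Submodule K V) (J1 J2 : Finset I), W1 < W → W < W2 → J1 ⊆ J → J2 ⊆ J →
      (∀ i ∈ J1 ∪ J2, Stb ρ (H i) W) → (∀ i ∈ J1, ¬ SolV ρ (H i) W1 W) →
      (∀ i ∈ J2, ¬ SolV ρ (H i) W W2) →
      finrank K W1 + c * (J1.card + J2.card) ≤ finrank K W2 := by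
    intro W J1 J2 hW1 hW2 hJ1 hJ2 hs n1 n2
    have f1 := Submodule.finrank_lt_finrank_of_lt hW1
    have f2 := Submodule.finrank_lt_finrank_of_lt hW2
    have e1 := ih (finrank K W - finrank K W1) (by omega) W1 W J1 (by omega) hW1.le
      (fun i hi => s1 i (hJ1 hi)) (fun i hi => hs i (Finset.mem_union_left _ hi)) n1
    have e2 := ih (finrank K W2 - finrank K W) (by omega) W W2 J2 (by omega) hW2.le
      (fun i hi => hs i (Finset.mem_union_right _ hi)) (fun i hi => s2 i (hJ2 hi)) n2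
    rw [Nat.mul_add]
    omega
  by_cases hex : ∃ W, W1 < W ∧ W < W2 ∧ ∀ i ∈ J, Stb ρ (H i) W
  · obtain ⟨W, hW1, hW2, hs⟩ := hex
    have h3 := key W (J.filter fun i => ¬ SolV ρ (H i) W1 W)
      (J.filter fun i => ¬ SolV ρ (H i) W W2)
      hW1 hW2 (Finset.filter_subset _ _) (Finset.filter_subset _ _)
      (fun i hi => hs i (by
        rcases Finset.mem_union.1 hi with h | h <;> exact (Finset.mem_filter.1 h).1))
      (fun i hi => (Finset.mem_filter.1 hi).2) (fun i hi => (Finset.mem_filter.1 hi).2)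
    have h4 : J ⊆ (J.filter fun i => ¬ SolV ρ (H i) W1 W) ∪
        (J.filter fun i => ¬ SolV ρ (H i) W W2) := by
      intro i hi
      rw [Finset.mem_union, Finset.mem_filter, Finset.mem_filter]
      by_contra hcon
      push Not at hcon
      exact hJ i hi (solV_trans ρ (s1 i hi) (s2 i hi) (hcon.1 hi) (hcon.2 hi))
    have h5 := Nat.mul_le_mul_left c
      ((Finset.card_le_card h4).trans (Finset.card_union_le _ _))
    omega
  · rcases J.eq_empty_or_nonempty with rfl | ⟨i, hi⟩
    · simpa using Submodule.finrank_mono h12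
    have h2 : finrank K W1 + c ≤ finrank K W2 := by
      by_contra hcon
      exact hJ i hi (hsmall i W1 W2 h12 (s1 i hi) (s2 i hi) (by omega))
    by_cases hcard : J.card ≤ 1
    · have hcard1 : J.card = 1 := le_antisymm hcard (Finset.card_pos.2 ⟨i, hi⟩)
      rw [hcard1, mul_one]
      exact h2
    have hlt : W1 < W2 := by
      refine lt_of_le_of_ne h12 fun h => ?_
      refine hJ i hi (solV_of_scalar ρ (s1 i hi) (s2 i hi) fun x hx => ⟨0, fun v hv => ?_⟩)
      rw [zero_smul, sub_zero, h]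
      exact s2 i hi x hx v hv
    have hns : ∃ x ∈ H i, ∀ c : K, ∃ v ∈ W2, ρ x v - c • v ∉ W1 := by
      by_contra hcon
      push Not at hcon
      exact hJ i hi (solV_of_scalar ρ (s1 i hi) (s2 i hi) hcon)
    obtain ⟨x, hx, hxc⟩ := hns
    obtain ⟨c', v0, hv0, hv1, hv2⟩ := exists_eig (ρ x) hlt (s1 i hi x hx) (s2 i hi x hx)
    let W : Submodule K V :=
      { carrier := {v | v ∈ W2 ∧ ρ x v - c' • v ∈ W1}
        add_mem' := by
          rintro a b ⟨ha, ha'⟩ ⟨hb, hb'⟩
          refine ⟨W2.add_mem ha hb, ?_⟩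
          have h : ρ x (a + b) - c' • (a + b) = (ρ x a - c' • a) + (ρ x b - c' • b) := by
            rw [map_add, smul_add]; abel
          rw [h]
          exact W1.add_mem ha' hb'
        zero_mem' := ⟨W2.zero_mem, by simp⟩
        smul_mem' := by
          rintro t a ⟨ha, ha'⟩
          refine ⟨W2.smul_mem t ha, ?_⟩
          have h : ρ x (t • a) - c' • (t • a) = t • (ρ x a - c' • a) := by
            rw [map_smul, smul_sub, smul_comm c' t a]
          rw [h]
          exact W1.smul_mem t ha' }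
    have hW1 : W1 < W := by
      refine lt_of_le_of_ne (fun v hv => ⟨h12 hv, W1.sub_mem (s1 i hi x hx v hv)
        (W1.smul_mem c' hv)⟩) fun h => hv1 ?_
      rw [h]
      exact ⟨hv0, hv2⟩
    have hW2 : W < W2 := by
      refine lt_of_le_of_ne (fun v hv => hv.1) fun h => ?_
      obtain ⟨v, hv, hv'⟩ := hxc c'
      rw [← h] at hv
      exact hv' hv.2
    have hsW : ∀ j ∈ J.erase i, Stb ρ (H j) W := by
      intro j hj y hy v hv
      have hji := (Finset.mem_erase.1 hj).1
      have hjJ := (Finset.mem_erase.1 hj).2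
      refine ⟨s2 j hjJ y hy v hv.1, ?_⟩
      have h : ρ x (ρ y v) - c' • ρ y v = ρ y (ρ x v - c' • v) := by
        rw [map_sub, map_smul, ← rho_mul, ← rho_mul, hcomm i j hji.symm x hx y hy]
      rw [h]
      exact s1 j hjJ y hy _ hv.2
    have n1 : ∀ j ∈ J.erase i, ¬ SolV ρ (H j) W1 W := by
      rintro j hj ⟨B, hBH, hBi, hBn, m, hm⟩
      have hji := (Finset.mem_erase.1 hj).1
      have hjJ := (Finset.mem_erase.1 hj).2
      let U : Submodule K V :=
        { carrier := {v | v ∈ W2 ∧ ∀ k ∈ Dr B m, ρ k v - v ∈ W1}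
          add_mem' := by
            rintro a b ⟨ha, ha'⟩ ⟨hb, hb'⟩
            refine ⟨W2.add_mem ha hb, fun k hk => ?_⟩
            have h : ρ k (a + b) - (a + b) = (ρ k a - a) + (ρ k b - b) := by
              rw [map_add]; abel
            rw [h]
            exact W1.add_mem (ha' k hk) (hb' k hk)
          zero_mem' := ⟨W2.zero_mem, fun k _ => by simp⟩
          smul_mem' := by
            rintro t a ⟨ha, ha'⟩
            refine ⟨W2.smul_mem t ha, fun k hk => ?_⟩
            have h : ρ k (t • a) - t • a = t • (ρ k a - a) := by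
              rw [map_smul, smul_sub]
            rw [h]
            exact W1.smul_mem t (ha' k hk) }
      have hWU : W ≤ U := fun v hv => ⟨hv.1, fun k hk => hm k hk v hv⟩
      have hU2 : U ≤ W2 := fun v hv => hv.1
      have hUs : ∀ l ∈ J, Stb ρ (H l) U := by
        intro l hl y hy v hv
        refine ⟨s2 l hl y hy v hv.1, fun k hk => ?_⟩
        by_cases hlj : l = j
        · subst hlj
          have hk' : y⁻¹ * k * y ∈ Dr B m := by
            have := Dr_conj' B m (hBn y⁻¹ ((H l).inv_mem hy)) hk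
            rwa [inv_inv] at this
          have h : ρ k (ρ y v) - ρ y v = ρ y (ρ (y⁻¹ * k * y) v - v) := by
            rw [map_sub, ← rho_mul, ← rho_mul]
            congr 3
            group
          rw [h]
          exact s1 l hl y hy _ (hv.2 _ hk')
        · have h : ρ k (ρ y v) - ρ y v = ρ y (ρ k v - v) := by
            rw [map_sub, ← rho_mul, ← rho_mul,
              hcomm l j hlj y hy k (hBH (Dr_le B m hk))]
          rw [h]
          exact s1 l hl y hy _ (hv.2 k hk)
      have hUeq : U = W2 := by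
        by_contra hne
        exact hex ⟨U, lt_of_lt_of_le hW1 hWU, lt_of_le_of_ne hU2 hne, hUs⟩
      refine hJ j hjJ ⟨B, hBH, hBi, hBn, m, fun k hk v hv => ?_⟩
      rw [← hUeq] at hv
      exact hv.2 k hk
    have n2 : ∀ j ∈ J.erase i, ¬ SolV ρ (H j) W W2 := by
      rintro j hj ⟨B, hBH, hBi, hBn, m, hm⟩
      have hji := (Finset.mem_erase.1 hj).1
      have hjJ := (Finset.mem_erase.1 hj).2
      let U : Submodule K V :=
        { carrier := {v | v ∈ W2 ∧ ∀ h ∈ H i, ρ h v ∈ W}
          add_mem' := by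
            rintro a b ⟨ha, ha'⟩ ⟨hb, hb'⟩
            refine ⟨W2.add_mem ha hb, fun h hh => ?_⟩
            rw [map_add]
            exact W.add_mem (ha' h hh) (hb' h hh)
          zero_mem' := ⟨W2.zero_mem, fun h _ => by rw [map_zero]; exact W.zero_mem⟩
          smul_mem' := by
            rintro t a ⟨ha, ha'⟩
            refine ⟨W2.smul_mem t ha, fun h hh => ?_⟩
            rw [map_smul]
            exact W.smul_mem t (ha' h hh) }
      have hU1 : W1 ≤ U := fun v hv => ⟨h12 hv, fun h hh => hW1.le (s1 i hi h hh v hv)⟩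
      have hUW : U ≤ W := fun v hv => by
        have := hv.2 1 (H i).one_mem
        rwa [map_one] at this
      have hUs : ∀ l ∈ J, Stb ρ (H l) U := by
        intro l hl y hy v hv
        refine ⟨s2 l hl y hy v hv.1, fun h hh => ?_⟩
        by_cases hli : l = i
        · subst hli
          rw [← rho_mul]
          exact hv.2 _ ((H l).mul_mem hh hy)
        · rw [← rho_mul, hcomm i l (Ne.symm hli) h hh y hy, rho_mul]
          exact hsW l (Finset.mem_erase.2 ⟨hli, hl⟩) y hy _ (hv.2 h hh)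
      have hUeq : W1 = U := by
        by_contra hne
        exact hex ⟨U, lt_of_le_of_ne hU1 hne, lt_of_le_of_lt hUW hW2, hUs⟩
      refine hJ j hjJ ⟨B, hBH, hBi, hBn, m, fun k hk v hv => ?_⟩
      have hkH := hBH (Dr_le B m hk)
      rw [hUeq]
      refine ⟨W2.sub_mem (s2 j hjJ k hkH v hv) hv, fun h hh => ?_⟩
      have e : ρ h (ρ k v - v) = ρ k (ρ h v) - ρ h v := by
        rw [map_sub, ← rho_mul, ← rho_mul, hcomm i j hji.symm h hh k hkH]
      rw [e]
      exact hm k hk _ (s2 i hi h hh v hv)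
    have h3 := key W (J.erase i) (J.erase i) hW1 hW2 (Finset.erase_subset _ _)
      (Finset.erase_subset _ _) (fun j hj => hsW j (by simpa using hj)) n1 n2
    rw [Finset.card_erase_of_mem hi] at h3
    have h6 : c * J.card ≤ c * (J.card - 1 + (J.card - 1)) := Nat.mul_le_mul_left c (by omega)
    omega

end Vale.Agent.P002.R2.H53
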