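import Vale.Agent.P002.R2.H53.Grp

/-!
Virtually solvable subgroups: commuting products and solvable extensions.
-/

namespace Vale.Agent.P002.R2.H53

/-- `S` is virtually solvable. -/
def VSolv {G : Type*} [Group G] (S : Subgroup G) : Prop :=
  ∃ T : Subgroup G, T ≤ S ∧ Group.IsSolvable T ∧ T.relIndex S ≠ 0

theorem solvable_of_le {G : Type*} [Group G] {S T : Subgroup G} (h : S ≤ T)
    (hT : Group.IsSolvable T) : Group.IsSolvable S :=
  Group.isSolvable_of_isSolvable_injective (f := Subgroup.inclusion h)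
    (Subgroup.inclusion_injective h)

theorem solvable_map {G G' : Type*} [Group G] [Group G'] {S : Subgroup G}
    (hS : Group.IsSolvable S) (f : G →* G') : Group.IsSolvable (S.map f) :=
  Group.isSolvable_of_surjective (f := f.subgroupMap S) (f.subgroupMap_surjective S)

theorem vsup {G : Type*} [Group G] {I : Type*} [Finite I] (B : I → Subgroup G)
    (hc : ∀ i j, i ≠ j → ∀ x ∈ B i, ∀ y ∈ B j, x * y = y * x) (hs : ∀ i, VSolv (B i)) :
    VSolv (⨆ i, B i) := by
  classical
  obtain ⟨_⟩ := nonempty_fintype I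
  choose T hT hTs hTi using hs
  refine ⟨⨆ i, T i, iSup_mono hT,
    sup_solvable T (fun i j hij x hx y hy => hc i j hij x (hT i hx) y (hT j hy)) hTs, ?_⟩
  have hcomm : Pairwise fun i j : I => ∀ x y : G, x ∈ B i → y ∈ B j → Commute x y :=
    fun i j hij x y hx hy => hc i j hij x hx y hy
  have hr := Subgroup.noncommPiCoprod_range (H := B) (hcomm := hcomm)
  set f := Subgroup.noncommPiCoprod hcomm with hf
  let P : Subgroup (∀ i, B i) := ⨅ i, ((T i).subgroupOf (B i)).comap
    (Pi.evalMonoidHom (fun i => B i) i)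
  have hP : P.index ≠ 0 := by
    refine Subgroup.index_iInf_ne_zero fun i => ?_
    have h1 : Function.Surjective (Pi.evalMonoidHom (fun i => B i) i) :=
      Function.surjective_eval i
    rw [Subgroup.index_comap_of_surjective _ h1]
    exact hTi i
  have h2 : (P.map f.rangeRestrict).index ≠ 0 := fun h =>
    hP (Nat.eq_zero_of_zero_dvd (h ▸ Subgroup.index_map_dvd P f.rangeRestrict_surjective))
  have h3 : P.map f.rangeRestrict ≤ (⨆ i, T i).subgroupOf f.range := by
    rintro _ ⟨x, hx, rfl⟩
    rw [Subgroup.mem_subgroupOf]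
    change f x ∈ ⨆ i, T i
    rw [hf, Subgroup.noncommPiCoprod_apply]
    refine Subgroup.noncommProd_mem _ _ fun i _ => ?_
    have hx' : x ∈ ((T i).subgroupOf (B i)).comap (Pi.evalMonoidHom (fun i => B i) i) :=
      (Subgroup.mem_iInf.1 hx) i
    exact Subgroup.mem_iSup_of_mem i (Subgroup.mem_subgroupOf.1 hx')
  have h4 : ((⨆ i, T i).subgroupOf f.range).index ≠ 0 := fun h =>
    h2 (Nat.eq_zero_of_zero_dvd (h ▸ Subgroup.index_dvd_of_le h3))
  rw [Subgroup.relIndex, ← hr]
  exact h4

theorem sup_normal_solvable {G : Type*} [Group G] (M M' : Subgroup G) [M.Normal] [M'.Normal]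
    (h : Group.IsSolvable M) (h' : Group.IsSolvable M') :
    Group.IsSolvable (M ⊔ M' : Subgroup G) := by
  have h1 : (M ⊔ M').map (QuotientGroup.mk' M') = M.map (QuotientGroup.mk' M') := by
    rw [Subgroup.map_sup]
    have : M'.map (QuotientGroup.mk' M') = ⊥ := by
      rw [Subgroup.map_eq_bot_iff, QuotientGroup.ker_mk']
    rw [this, sup_bot_eq]
  have h2 : Group.IsSolvable ((M ⊔ M').map (QuotientGroup.mk' M')) := by
    rw [h1]
    exact solvable_map h _
  refine Group.isSolvable_of_ker_le_range (Subgroup.inclusion (le_sup_right : M' ≤ M ⊔ M'))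
    ((QuotientGroup.mk' M').subgroupMap (M ⊔ M')) ?_
  intro x hx
  have h3 : QuotientGroup.mk' M' (x : G) = 1 := congrArg Subtype.val (MonoidHom.mem_ker.1 hx)
  have h4 : (x : G) ∈ M' := by
    rwa [QuotientGroup.mk'_apply, QuotientGroup.eq_one_iff] at h3
  exact ⟨⟨x, h4⟩, Subtype.ext rfl⟩

/-- A normal subgroup `N` which is virtually solvable contains a solvable subgroup of finite index
which is normal in the whole group. -/
theorem exists_normal {E : Type*} [Group E] (N : Subgroup E) [N.Normal] (M₀ : Subgroup N)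
    (hM₀ : M₀.Normal) (hs₀ : Group.IsSolvable M₀) (hi₀ : M₀.index ≠ 0) :
    ∃ M : Subgroup N, Group.IsSolvable M ∧ M.index ≠ 0 ∧ (M.map N.subtype).Normal := by
  classical
  have hex : ∃ n : ℕ, ∃ M : Subgroup N, M.Normal ∧ Group.IsSolvable M ∧ M.index ≠ 0 ∧
      M.index = n := ⟨_, M₀, hM₀, hs₀, hi₀, rfl⟩
  obtain ⟨M, hM, hs, hi, hn⟩ := Nat.find_spec hex
  have hmin : ∀ M' : Subgroup N, M'.Normal → Group.IsSolvable M' → M'.index ≠ 0 →
      M.index ≤ M'.index := fun M' h1 h2 h3 => hn ▸ Nat.find_min' hex ⟨M', h1, h2, h3, rfl⟩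
  refine ⟨M, hs, hi, ⟨?_⟩⟩
  rintro _ ⟨m, hm, rfl⟩ e
  set c : N ≃* N := MulAut.conjNormal e with hc
  have hsurj : Function.Surjective (c : N →* N) := c.surjective
  have hMe : (M.map (c : N →* N)).Normal := Subgroup.Normal.map hM _ hsurj
  have := hM
  have h1 : Group.IsSolvable (M ⊔ M.map (c : N →* N) : Subgroup N) :=
    sup_normal_solvable _ _ hs (solvable_map hs _)
  have h2 : M ≤ M ⊔ M.map (c : N →* N) := le_sup_left
  have h3 : (M ⊔ M.map (c : N →* N)).index ≠ 0 := fun h =>
    hi (Nat.eq_zero_of_zero_dvd (h ▸ Subgroup.index_dvd_of_le h2))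
  have h4 := hmin _ inferInstance h1 h3
  have h5 := Subgroup.relIndex_mul_index h2
  have h6 : M.relIndex (M ⊔ M.map (c : N →* N)) = 1 := by
    have h7 : M.relIndex (M ⊔ M.map (c : N →* N)) ≠ 0 := by
      intro h
      rw [h, zero_mul] at h5
      exact hi h5.symm
    have h8 : 0 < (M ⊔ M.map (c : N →* N)).index := Nat.pos_of_ne_zero h3
    rcases Nat.lt_or_ge 1 (M.relIndex (M ⊔ M.map (c : N →* N))) with h9 | h9
    · exfalso
      have h10 : 2 * (M ⊔ M.map (c : N →* N)).index ≤ M.index := by
        rw [← h5]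
        exact Nat.mul_le_mul_right _ h9
      omega
    · omega
  rw [Subgroup.relIndex_eq_one] at h6
  have h7 : c m ∈ M := h6 (Subgroup.mem_sup_right (Subgroup.mem_map_of_mem _ hm))
  refine ⟨c m, h7, ?_⟩
  rw [hc]
  exact MulAut.conjNormal_apply e m

/-- The conclusion for the whole group. -/
theorem vsolv_top {E : Type*} [Group E] (N : Subgroup E) [hNn : N.Normal] (k : ℕ)
    (hk : derivedSeries E k ≤ N) (M : Subgroup N) (hs : Group.IsSolvable M) (hi : M.index ≠ 0)
    (hn : (M.map N.subtype).Normal) :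
    ∃ E' : Subgroup E, Group.IsSolvable E' ∧ E'.index ≠ 0 := by
  classical
  set K := M.map N.subtype with hK
  set π := QuotientGroup.mk' K with hπ
  have hπs : Function.Surjective π := QuotientGroup.mk'_surjective K
  set F := N.map π with hF
  have hFn : F.Normal := Subgroup.Normal.map hNn _ hπs
  have : M.FiniteIndex := ⟨hi⟩
  have hfin : Finite F := by
    have h1 : ∀ x y : N, QuotientGroup.mk (s := M) x = QuotientGroup.mk y →
        π.subgroupMap N x = π.subgroupMap N y := by
      intro x y hxy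
      rw [QuotientGroup.eq] at hxy
      apply Subtype.ext
      change π x = π y
      rw [hπ, QuotientGroup.mk'_apply, QuotientGroup.mk'_apply, QuotientGroup.eq]
      exact ⟨x⁻¹ * y, hxy, rfl⟩
    have : Finite (N ⧸ M) := Subgroup.finite_quotient_of_finiteIndex
    refine Finite.of_surjective (α := N ⧸ M)
      (fun q => Quotient.liftOn' q (fun x => π.subgroupMap N x) fun x y hxy =>
        h1 x y (Quotient.sound' hxy)) ?_
    intro y
    obtain ⟨x, hx⟩ := π.subgroupMap_surjective N y
    exact ⟨QuotientGroup.mk x, hx⟩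
  have : Finite (MulAut F) := Finite.of_injective (fun f : MulAut F => (f : F → F))
    DFunLike.coe_injective
  set Z := (MulAut.conjNormal (H := F)).ker with hZ
  have hZc : ∀ z ∈ Z, ∀ y ∈ F, z * y = y * z := by
    intro z hz y hy
    have h1 := congrArg (fun f : MulAut F => ((f ⟨y, hy⟩ : F) : E ⧸ K)) (MonoidHom.mem_ker.1 hz)
    change ((MulAut.conjNormal z ⟨y, hy⟩ : F) : E ⧸ K) = y at h1
    rw [MulAut.conjNormal_apply] at h1
    change z * y * z⁻¹ = y at h1
    rw [mul_inv_eq_iff_eq_mul] at h1
    exact h1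
  have hZi : Z.index ≠ 0 := by
    have : Z.FiniteIndex := Subgroup.finiteIndex_ker _
    exact this.index_ne_zero
  have hZs : Group.IsSolvable Z := by
    refine ⟨k + 1, ?_⟩
    have h1 : ∀ x ∈ derivedSeries Z k, (x : E ⧸ K) ∈ F := by
      intro x hx
      have h2 := map_derivedSeries_le_derivedSeries Z.subtype k (Subgroup.mem_map_of_mem _ hx)
      rw [← map_derivedSeries_eq hπs k] at h2
      exact Subgroup.map_mono hk h2
    rw [derivedSeries_succ, eq_bot_iff, Subgroup.commutator_le]
    intro x hx y hy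
    rw [Subgroup.mem_bot, commutatorElement_eq_one_iff_mul_comm]
    exact Subtype.ext (hZc x x.2 y (h1 y hy))
  refine ⟨Z.comap π, ?_, ?_⟩
  · have h2 : Group.IsSolvable K := solvable_map hs _
    have hKle : K ≤ Z.comap π := by
      intro x hx
      rw [Subgroup.mem_comap]
      have : π x = 1 := by
        rw [hπ, QuotientGroup.mk'_apply, QuotientGroup.eq_one_iff]
        exact hx
      rw [this]
      exact one_mem _
    have h3 : Group.IsSolvable ((Z.comap π).map π) :=
      solvable_of_le (Subgroup.map_comap_le _ _) hZs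
    refine Group.isSolvable_of_ker_le_range (Subgroup.inclusion hKle)
      (π.subgroupMap (Z.comap π)) ?_
    intro x hx
    have h4 : π (x : E) = 1 := congrArg Subtype.val (MonoidHom.mem_ker.1 hx)
    have h5 : (x : E) ∈ K := (QuotientGroup.eq_one_iff (x : E)).1 h4
    exact ⟨⟨x, h5⟩, Subtype.ext rfl⟩
  · rw [Subgroup.index_comap_of_surjective _ hπs]
    exact hZi

theorem vext {G : Type*} [Group G] (E S : Subgroup G) (hS : VSolv S) (k : ℕ)
    (h : (derivedSeries E k).map E.subtype ≤ S) : VSolv E := by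
  obtain ⟨T, hTS, hTs, hTi⟩ := hS
  set N := derivedSeries E k with hN
  have : N.Normal := derivedSeries_normal E k
  set ι : N →* G := E.subtype.comp N.subtype with hι
  have hιi : Function.Injective ι := fun x y hxy => Subtype.ext (Subtype.ext hxy)
  have hr : ι.range = N.map E.subtype := by
    rw [hι, MonoidHom.range_comp, Subgroup.range_subtype]
  have h1 : (T.comap ι).index ≠ 0 := by
    rw [Subgroup.index_comap, hr]
    exact fun h0 => hTi (Subgroup.relIndex_eq_zero_of_le_right h h0)
  have h2 : Group.IsSolvable (T.comap ι) := by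
    refine Group.isSolvable_of_isSolvable_injective
      (f := (ι.comp (T.comap ι).subtype).codRestrict T fun x => x.2) ?_
    intro x y hxy
    have h3 : ι (x : N) = ι (y : N) := by
      have h4 := congrArg (fun z : T => (z : G)) hxy
      exact h4
    exact Subtype.ext (hιi h3)
  have : (T.comap ι).FiniteIndex := ⟨h1⟩
  obtain ⟨M, hMs, hMi, hMn⟩ := exists_normal N (T.comap ι).normalCore inferInstance
    (solvable_of_le (Subgroup.normalCore_le _) h2)
    (Subgroup.finiteIndex_normalCore (T.comap ι)).index_ne_zero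
  obtain ⟨E', hE's, hE'i⟩ := vsolv_top N k le_rfl M hMs hMi hMn
  refine ⟨E'.map E.subtype, ?_, solvable_map hE's _, ?_⟩
  · rintro _ ⟨x, -, rfl⟩
    exact x.2
  · rw [Subgroup.relIndex, Subgroup.subgroupOf,
      Subgroup.comap_map_eq_self_of_injective E.subtype_injective]
    exact hE'i

end Vale.Agent.P002.R2.H53
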