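import Vale.Agent.P002.R2.H53.Defs
import Vale.Agent.P002.R2.H53.LinV
import Vale.Agent.P002.R2.H53.VGrp
import Vale.Agent.P002.H2.N7

/-!
# Commuting conjugates
-/

namespace Vale.Agent.P002.R2.H53

open Module Matrix NumberField Vale.Agent.P002R.Orb Vale.Agent.P002.H326J Vale.Agent.P002.H2

/-- `GL_r` -/
theorem gl_le (K : Type) [Field K] [IsAlgClosed K] (r : ℕ) (I : Type) [Finite I]
    (B : I → Subgroup (GL (Fin r) K))
    (hcomm : ∀ i j, i ≠ j → ∀ x ∈ B i, ∀ y ∈ B j, x * y = y * x)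
    (hB : ∀ i, ¬ Group.IsSolvable (B i)) : 2 * Nat.card I ≤ r := by
  let ρ : GL (Fin r) K →* End K (Fin r → K) :=
    (Units.coeHom (End K (Fin r → K))).comp
      (Matrix.GeneralLinearGroup.toLin (n := Fin r) (R := K)).toMonoidHom
  have hρ : Function.Injective ρ :=
    Units.val_injective.comp (Matrix.GeneralLinearGroup.toLin (n := Fin r) (R := K)).injective
  have h := two_mul_le ρ hρ B hcomm hB
  rwa [Module.finrank_fin_fun] at h

theorem isIntegralPoint_of_rep {ι : Type} {r : ℕ} {L : IntermediateField ℚ ℂ}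
    {R : Set (FreeGroup ι)} {X : ι → SpecialLinearGroup (Fin r) ℂ} (h : IsIntegralRep L X) :
    IsIntegralPoint R L X := by
  intro F _
  choose a ha using h
  let φ : 𝓞 L →+* ℂ := (algebraMap L ℂ).comp (algebraMap (𝓞 L) L)
  refine ⟨MvPolynomial.eval₂ (algebraMap ℤ (𝓞 L)) (fun p => a p.1 p.2.1 p.2.2) F, ?_⟩
  change _ = φ _
  rw [MvPolynomial.hom_eval₂, value]
  have h1 : φ.comp (algebraMap ℤ (𝓞 L)) = algebraMap ℤ ℂ := RingHom.ext_int _ _
  rw [h1]
  congr 1
  funext p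
  exact ha p.1 p.2.1 p.2.2

section factor

variable {G : Type*} [Group G] {I : Type*} {P : I → Type*} [∀ i, Group (P i)] {A : Subgroup G}

theorem factor_comm (e : A ≃* (∀ i, P i)) (i j : I) (hij : i ≠ j) (x : G) (hx : x ∈ Factor e i)
    (y : G) (hy : y ∈ Factor e j) : x * y = y * x := by
  obtain ⟨hx, hx'⟩ := hx
  obtain ⟨hy, hy'⟩ := hy
  have h : e (⟨x, hx⟩ * ⟨y, hy⟩) = e (⟨y, hy⟩ * ⟨x, hx⟩) := by
    rw [map_mul, map_mul]
    funext k
    rw [Pi.mul_apply, Pi.mul_apply]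
    by_cases hk : k = i
    · rw [hy' k (hk.symm ▸ hij), mul_one, one_mul]
    · rw [hx' k hk, mul_one, one_mul]
  exact congrArg Subtype.val (e.injective h)

theorem factor_solvable (e : A ≃* (∀ i, P i)) (i : I) (h : Group.IsSolvable (P i)) :
    Group.IsSolvable (Factor e i) := by
  let g : Factor e i →* P i :=
    { toFun := fun x => e ⟨x.1, x.2.1⟩ i
      map_one' := by
        have h : (⟨1, A.one_mem⟩ : A) = 1 := rfl
        change e ⟨1, A.one_mem⟩ i = 1
        rw [h, map_one, Pi.one_apply]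
      map_mul' := fun x y => by
        change e (⟨x.1, x.2.1⟩ * ⟨y.1, y.2.1⟩) i = _
        rw [map_mul, Pi.mul_apply] }
  refine Group.isSolvable_of_isSolvable_injective (f := g) ?_
  intro x y hxy
  have h1 : e ⟨x.1, x.2.1⟩ = e ⟨y.1, y.2.1⟩ := by
    funext k
    by_cases hk : k = i
    · subst hk; exact hxy
    · rw [x.2.2 k hk, y.2.2 k hk]
  have h2 : x.1 = y.1 := congrArg (fun z : A => (z : G)) (e.injective h1)
  exact Subtype.ext h2

theorem le_iSup_factor [Finite I] (e : A ≃* (∀ i, P i)) : A ≤ ⨆ i, Factor e i := by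
  classical
  have h1 : (Subgroup.pi Set.univ fun i => (⊤ : Subgroup (P i))) ≤
      ((⨆ i, Factor e i).comap A.subtype).comap e.symm.toMonoidHom := by
    rw [Subgroup.pi_le_iff]
    rintro i _ ⟨x, -, rfl⟩
    refine Subgroup.mem_iSup_of_mem i ⟨(e.symm _).2, fun j hj => ?_⟩
    change e (e.symm (Pi.mulSingle i x)) j = 1
    rw [MulEquiv.apply_symm_apply, Pi.mulSingle_eq_of_ne hj]
  intro x hx
  have h2 := h1 (show e ⟨x, hx⟩ ∈ _ from fun i _ => Subgroup.mem_top _)
  have h3 : A.subtype (e.symm (e ⟨x, hx⟩)) ∈ ⨆ i, Factor e i := h2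
  rwa [MulEquiv.symm_apply_apply] at h3

end factor

theorem smallRepsVS_two (Γ : Type) [Group Γ] : SmallRepsVS Γ 2 := by
  intro M _ _ _ σ hM
  have h := sol_of_dim σ (H := (⊤ : Subgroup Γ)) (W1 := ⊥) (W2 := ⊤) bot_le
    (fun x _ v hv => by
      rw [Submodule.mem_bot] at hv ⊢
      rw [hv, map_zero])
    (fun x _ v _ => Submodule.mem_top) (by rw [finrank_top, finrank_bot]; omega)
  obtain ⟨m, hm⟩ := h
  refine ⟨⊤, inferInstance, m, fun x hx => ?_⟩
  rw [Dr_derived] at hx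
  refine LinearMap.ext fun v => ?_
  have h2 := hm x hx v Submodule.mem_top
  rw [Submodule.mem_bot, sub_eq_zero] at h2
  exact h2

theorem smallRepsVS_of_solvable (Γ : Type) [Group Γ] (A : Subgroup Γ) (hA : Group.IsSolvable A)
    (hA' : A.FiniteIndex) (c : ℕ) : SmallRepsVS Γ c := by
  intro M _ _ _ σ _
  obtain ⟨m, hm⟩ := hA.solvable
  refine ⟨A, hA', m, fun x hx => ?_⟩
  rw [hm, Subgroup.map_bot, Subgroup.mem_bot] at hx
  rw [hx, map_one]

theorem SmallRepsVS.of_equiv {Γ Γ' : Type} [Group Γ] [Group Γ'] (e : Γ ≃* Γ') {c : ℕ}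
    (h : SmallRepsVS Γ c) : SmallRepsVS Γ' c := by
  intro M _ _ _ σ hM
  obtain ⟨B, hB, m, hm⟩ := h M (σ.comp e.toMonoidHom) hM
  refine ⟨B.map e.toMonoidHom, ?_, m, fun x hx => ?_⟩
  · refine ⟨?_⟩
    have h1 := Subgroup.index_map_equiv B e
    rw [show B.map e.toMonoidHom = B.map (e : Γ →* Γ') from rfl, h1]
    exact hB.index_ne_zero
  · rw [Dr_derived, Dr_map] at hx
    obtain ⟨y, hy, rfl⟩ := hx
    exact hm y (by rw [Dr_derived]; exact hy)

/-- sections of dimension less than `c` -/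
theorem section_small {G V : Type} [Group G] [AddCommGroup V] [Module ℂ V]
    [FiniteDimensional ℂ V] (ρ : G →* End ℂ V) (H : Subgroup G) (c : ℕ) (hH : SmallRepsVS H c)
    (W1 W2 : Submodule ℂ V) (h12 : W1 ≤ W2) (h1 : Stb ρ H W1) (h2 : Stb ρ H W2)
    (hd : finrank ℂ W2 < finrank ℂ W1 + c) : SolV ρ H W1 W2 := by
  let N1 : Submodule ℂ W2 := W1.comap W2.subtype
  let a : H → (W2 →ₗ[ℂ] W2) := fun x => (ρ x).restrict fun v hv => h2 x x.2 v hv
  have ha : ∀ x, N1 ≤ N1.comap (a x) := fun x v hv => h1 x x.2 v.1 hv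
  let σ : H →* End ℂ (W2 ⧸ N1) :=
    { toFun := fun x => N1.mapQ N1 (a x) (ha x)
      map_one' := by
        refine LinearMap.ext fun q => ?_
        obtain ⟨v, rfl⟩ := N1.mkQ_surjective q
        change N1.mkQ (a 1 v) = N1.mkQ v
        congr 1
        refine Subtype.ext ?_
        change ρ (1 : G) v.1 = v.1
        rw [map_one]
        rfl
      map_mul' := fun x y => by
        refine LinearMap.ext fun q => ?_
        obtain ⟨v, rfl⟩ := N1.mkQ_surjective q
        change N1.mkQ (a (x * y) v) = N1.mkQ (a x (a y v))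
        congr 1
        refine Subtype.ext ?_
        change ρ (x.1 * y.1) v.1 = ρ x.1 (ρ y.1 v.1)
        rw [rho_mul] }
  have hN : finrank ℂ N1 = finrank ℂ W1 :=
    (Submodule.submoduleOfEquivOfLe h12).finrank_eq
  have hq := Submodule.finrank_quotient_add_finrank N1
  obtain ⟨B', hB', m, hm⟩ := hH (W2 ⧸ N1) σ (by omega)
  have hcore : (B'.normalCore).FiniteIndex := Subgroup.finiteIndex_normalCore B'
  refine ⟨B'.normalCore.map H.subtype, Subgroup.map_subtype_le _, ?_, ?_, m, fun x hx v hv => ?_⟩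
  · have h4 : (B'.normalCore.map H.subtype).relIndex H = B'.normalCore.index := by
      rw [Subgroup.relIndex, Subgroup.subgroupOf, Subgroup.comap_map_eq_self_of_injective
        (Subgroup.subtype_injective H)]
    rw [h4]
    exact hcore.index_ne_zero
  · rintro h hh _ ⟨y, hy, rfl⟩
    exact ⟨⟨h, hh⟩ * y * ⟨h, hh⟩⁻¹, Subgroup.normalCore_normal B' |>.conj_mem y hy ⟨h, hh⟩, rfl⟩
  · rw [Dr_map] at hx
    obtain ⟨y, hy, rfl⟩ := hx
    have h5 := hm y (by
      rw [Dr_derived]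
      exact Dr_mono (Subgroup.normalCore_le B') m hy)
    have h6 := LinearMap.congr_fun h5 (N1.mkQ ⟨v, hv⟩)
    change N1.mkQ (a y ⟨v, hv⟩) = N1.mkQ ⟨v, hv⟩ at h6
    have h7 := (Submodule.Quotient.eq N1).1 h6
    exact h7

theorem SolV.of_conj {G V : Type} [Group G] [AddCommGroup V] [Module ℂ V] (ρ : G →* End ℂ V)
    {H H' : Subgroup G} (h : AreConj H H') (hs : SolV ρ H' ⊥ ⊤) : SolV ρ H ⊥ ⊤ := by
  obtain ⟨g, hg⟩ := h
  obtain ⟨B, hB, hi, hn, m, hm⟩ := hs
  have h1 : H = H'.map (MulAut.conj g).toMonoidHom := by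
    ext x
    constructor
    · intro hx
      refine ⟨g⁻¹ * x * g, (hg _).2 ?_, ?_⟩
      · have : g * (g⁻¹ * x * g) * g⁻¹ = x := by group
        rwa [this]
      · change g * (g⁻¹ * x * g) * g⁻¹ = x
        group
    · rintro ⟨y, hy, rfl⟩
      exact (hg y).1 hy
  refine ⟨B.map (MulAut.conj g).toMonoidHom, ?_, ?_, ?_, m, fun x hx => ?_⟩
  · rw [h1]
    exact Subgroup.map_mono hB
  · rw [h1, Subgroup.relIndex_map_map_of_injective _ _ (MulAut.conj g).injective]
    exact hi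
  · rw [h1]
    rintro _ ⟨y, hy, rfl⟩ _ ⟨x, hx, rfl⟩
    refine ⟨y * x * y⁻¹, hn y hy x hx, ?_⟩
    change g * (y * x * y⁻¹) * g⁻¹ = (g * y * g⁻¹) * (g * x * g⁻¹) * (g * y * g⁻¹)⁻¹
    group
  · rw [Dr_map] at hx
    obtain ⟨y, hy, rfl⟩ := hx
    intro v _
    have h2 := hm y hy (ρ g⁻¹ v) Submodule.mem_top
    rw [Submodule.mem_bot, sub_eq_zero] at h2
    change ρ (g * y * g⁻¹) v - v ∈ _
    rw [Submodule.mem_bot, sub_eq_zero, rho_mul, rho_mul, h2, rho_inv]

theorem AreConj.equiv {G : Type} [Group G] {H H' : Subgroup G} (h : AreConj H H') :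
    Nonempty (H ≃* H') := by
  obtain ⟨g, hg⟩ := h
  refine ⟨MulEquiv.symm
    { toFun := fun x => ⟨g * x.1 * g⁻¹, (hg x.1).1 x.2⟩
      invFun := fun x => ⟨g⁻¹ * x.1 * g, (hg _).2 (by
        have : g * (g⁻¹ * x.1 * g) * g⁻¹ = x.1 := by group
        rw [this]
        exact x.2)⟩
      left_inv := fun x => Subtype.ext (by
        change g⁻¹ * (g * x.1 * g⁻¹) * g = x.1
        group)
      right_inv := fun x => Subtype.ext (by
        change g * (g⁻¹ * x.1 * g) * g⁻¹ = x.1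
        group)
      map_mul' := fun x y => Subtype.ext (by
        change g * (x.1 * y.1) * g⁻¹ = g * x.1 * g⁻¹ * (g * y.1 * g⁻¹)
        group) }⟩

/-- all the `H i` have virtually solvable image -/
theorem image_vsolv {G E V : Type} [Group G] [Group E] [AddCommGroup V] [Module ℂ V]
    [FiniteDimensional ℂ V] (θ : E →* End ℂ V) (hθ : Function.Injective θ) (f : G →* E)
    {I : Type*} [Finite I] (H : I → Subgroup G)
    (hc : ∀ i j, i ≠ j → ∀ x ∈ H i, ∀ y ∈ H j, x * y = y * x) (i : I)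
    (hH : ∃ c n : ℕ, finrank ℂ V < c * n ∧ SmallRepsVS (H i) c ∧
      n ≤ Nat.card {j // AreConj (H i) (H j)}) : VSolv ((H i).map f) := by
  classical
  obtain ⟨c, n, hr, hs, hn⟩ := hH
  have hS : SolV (θ.comp f) (H i) ⊥ ⊤ := by
    by_contra hns
    have := Fintype.ofFinite {j // AreConj (H i) (H j)}
    have h := section_leV (θ.comp f) (fun j : {j // AreConj (H i) (H j)} => H j.1) c
      (fun j k hjk x hx y hy => hc j.1 k.1 (fun h => hjk (Subtype.ext h)) x hx y hy)
      (fun j W1 W2 h12 h1 h2 hd => by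
        obtain ⟨e⟩ := j.2.equiv
        exact section_small (θ.comp f) (H j.1) c (hs.of_equiv e) W1 W2 h12 h1 h2 hd)
      (finrank ℂ V) ⊥ ⊤ Finset.univ (by
        rw [finrank_top]; omega) bot_le
      (fun j _ x _ v hv => by
        rw [Submodule.mem_bot] at hv ⊢
        rw [hv, map_zero])
      (fun j _ x _ v _ => Submodule.mem_top) (fun j _ hj => hns (hj.of_conj _ j.2))
    rw [finrank_bot, finrank_top, Finset.card_univ, ← Nat.card_eq_fintype_card, zero_add] at h
    have h8 := Nat.mul_le_mul_left c hn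
    omega
  obtain ⟨B, hB, hi, -, m, hm⟩ := hS
  refine ⟨B.map f, Subgroup.map_mono hB, ⟨⟨m, ?_⟩⟩, ?_⟩
  · have h1 : Dr (B.map f) m = ⊥ := by
      rw [Dr_map, Subgroup.eq_bot_iff_forall]
      rintro _ ⟨x, hx, rfl⟩
      apply hθ
      rw [map_one]
      refine LinearMap.ext fun v => ?_
      have h2 := hm x hx v Submodule.mem_top
      rw [Submodule.mem_bot, sub_eq_zero] at h2
      exact h2
    rw [← Dr_derived, Subgroup.map_eq_bot_iff_of_injective _ (Subgroup.subtype_injective _)] at h1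
    exact h1
  · rw [← Subgroup.relIndex_comap]
    exact fun h2 => hi (Subgroup.relIndex_eq_zero_of_le_left (Subgroup.le_comap_map f _) h2)

/-- the image of `A` is virtually solvable -/
theorem map_vsolv' {G E V : Type} [Group G] [Group E] [AddCommGroup V] [Module ℂ V]
    [FiniteDimensional ℂ V] (θ : E →* End ℂ V) (hθ : Function.Injective θ) (f : G →* E)
    {I : Type} [Finite I] (H : I → Subgroup G)
    (hc : ∀ i j, i ≠ j → ∀ x ∈ H i, ∀ y ∈ H j, x * y = y * x)
    (hH : ∀ i, RankBound H (finrank ℂ V) i) (A : Subgroup G) (k : ℕ)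
    (hk : (derivedSeries A k).map A.subtype ≤ ⨆ i, H i) : VSolv (A.map f) := by
  have hS : VSolv (⨆ i, (H i).map f : Subgroup E) := by
    refine vsup _ ?_ fun i => image_vsolv θ hθ f H hc i (hH i)
    rintro i j hij _ ⟨x, hx, rfl⟩ _ ⟨y, hy, rfl⟩
    rw [← map_mul, ← map_mul, hc i j hij x hx y hy]
  refine vext (A.map f) _ hS k ?_
  rw [Dr_derived, Dr_map, ← Dr_derived, ← Subgroup.map_iSup]
  exact Subgroup.map_mono hk

/-- the image of `A` is virtually solvable in every representation of rank `r` -/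
theorem map_vsolv {G : Type} [Group G] {r : ℕ} (f : G →* SpecialLinearGroup (Fin r) ℂ)
    {I : Type} [Finite I] (H : I → Subgroup G)
    (hc : ∀ i j, i ≠ j → ∀ x ∈ H i, ∀ y ∈ H j, x * y = y * x)
    (hH : ∀ i, RankBound H r i) (A : Subgroup G) (k : ℕ)
    (hk : (derivedSeries A k).map A.subtype ≤ ⨆ i, H i) : VSolv (A.map f) :=
  map_vsolv' ((LinearEquiv.automorphismGroup.toLinearMapMonoidHom (R := ℂ)
      (M := Fin r → ℂ)).comp Matrix.SpecialLinearGroup.toLin')
    (LinearEquiv.toLinearMap_injective.comp Matrix.SpecialLinearGroup.toLin'_injective) f H hc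
    (by rwa [Module.finrank_fin_fun]) A k hk

theorem yker_eq_of_bound {ι : Type} {R : Set (FreeGroup ι)} {r s : ℕ}
    (w : Fin s → FreeGroup ι) (C : Fin s → SpecialLinearGroup (Fin r) ℂ)
    {I : Type} [Finite I] (H : I → Subgroup (PresentedGroup R))
    (hc : ∀ i j, i ≠ j → ∀ x ∈ H i, ∀ y ∈ H j, x * y = y * x)
    (hH : ∀ i, RankBound H r i) (K A : Subgroup (PresentedGroup R)) (hAK : A ≤ K)
    (hA : A.relIndex K ≠ 0) (k : ℕ) (hk : (derivedSeries A k).map A.subtype ≤ ⨆ i, H i) :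
    YKer R w C K = YW R w C := by
  refine Set.Subset.antisymm (fun X hX => hX.1) fun X hX => ⟨hX, ?_⟩
  have hrel : ∀ c ∈ R, FreeGroup.lift X c = 1 := hX.1.1
  let f : PresentedGroup R →* SpecialLinearGroup (Fin r) ℂ := PresentedGroup.toGroup hrel
  have h1 : (K.comap (PresentedGroup.mk R)).map (FreeGroup.lift X) = K.map f := by
    ext g
    constructor
    · rintro ⟨x, hx, rfl⟩
      exact ⟨PresentedGroup.mk R x, hx, rfl⟩
    · rintro ⟨y, hy, rfl⟩
      obtain ⟨x, rfl⟩ := QuotientGroup.mk_surjective y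
      exact ⟨x, hy, rfl⟩
  obtain ⟨T, hT, hTs, hTi⟩ := map_vsolv f H hc hH A k hk
  rw [h1]
  refine ⟨T, hT.trans (Subgroup.map_mono hAK), hTs, ?_⟩
  rw [← Subgroup.relIndex_mul_relIndex T (A.map f) (K.map f) hT (Subgroup.map_mono hAK)]
  refine mul_ne_zero hTi ?_
  rw [← Subgroup.relIndex_comap]
  exact fun h2 => hA (Subgroup.relIndex_eq_zero_of_le_left (Subgroup.le_comap_map f _) h2)

/-- (2) -/
theorem rel_two (ι : Type) [Finite ι] (R : Set (FreeGroup ι))
    (O : OrbFamily (PresentedGroup R)) (I : Type) [Finite I]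
    (H : I → Subgroup (PresentedGroup R))
    (hc : ∀ i j, i ≠ j → ∀ x ∈ H i, ∀ y ∈ H j, x * y = y * x)
    (A : Subgroup (PresentedGroup R)) (hAK : A ≤ O.K) (hA : A.relIndex O.K ≠ 0) (k : ℕ)
    (hk : (derivedSeries A k).map A.subtype ≤ ⨆ i, H i) (r : ℕ)
    (hH : ∀ i, RankBound H r i) (s : ℕ)
    (w : Fin s → FreeGroup ι) (C : Fin s → SpecialLinearGroup (Fin r) ℂ)
    (hw : ∀ j, O.IsPeripheral (PresentedGroup.mk R (w j)))
    (hC : ∀ j z, IsEigenvalue (C j) z → ∃ m : ℕ, 0 < m ∧ z ^ m = 1) :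
    ∃ L : IntermediateField ℚ ℂ, FiniteDimensional ℚ L ∧
      IsDense R L (YW R w C) ∧ IsDenseRep L (YW R w C) := by
  obtain ⟨L, hL, h⟩ := main_T O r w C hC hw
  rw [yker_eq_of_bound w C H hc hH O.K A hAK hA k hk] at h
  exact ⟨L, hL, fun F _ hF X hX => h F
    (fun X' hX' hX'' => hF X' hX' (isIntegralPoint_of_rep hX'')) X hX, h⟩

/-- (3) -/
theorem rel_three (ι : Type) [Finite ι] (R : Set (FreeGroup ι))
    (O : OrbFamily (PresentedGroup R)) (I : Type) [Finite I]
    (P : I → Type) [∀ i, Group (P i)] (A : Subgroup (PresentedGroup R)) (hAK : A ≤ O.K)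
    (hA : A.relIndex O.K ≠ 0) (e : A ≃* (∀ i, P i)) (r : ℕ)
    (hH : ∀ i, RankBound (Factor e) r i) (s : ℕ)
    (w : Fin s → FreeGroup ι) (C : Fin s → SpecialLinearGroup (Fin r) ℂ)
    (hw : ∀ j, O.IsPeripheral (PresentedGroup.mk R (w j)))
    (hC : ∀ j z, IsEigenvalue (C j) z → ∃ m : ℕ, 0 < m ∧ z ^ m = 1) :
    ∃ L : IntermediateField ℚ ℂ, FiniteDimensional ℚ L ∧
      IsDense R L (YW R w C) ∧ IsDenseRep L (YW R w C) := by
  refine rel_two ι R O I (Factor e) (factor_comm e) A hAK hA 0 ?_ r hH s w C hw hC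
  rw [Dr_derived]
  exact le_iSup_factor e

/-- the empty family: `K = Γ` and every element is peripheral -/
def emptyFamily (Γ : Type) [Group Γ] : OrbFamily Γ where
  I := Empty
  fin := inferInstance
  act := { smul := fun _ i => i, one_smul := fun i => i.elim, mul_smul := fun _ _ i => i.elim }
  g := fun i => i.elim
  n := fun i => i.elim
  m := fun i => i.elim
  φ := fun i => i.elim
  range := fun i => i.elim
  conj := fun _ i => i.elim
  dist := fun i => i.elim

theorem emptyFamily_K (Γ : Type) [Group Γ] : (emptyFamily Γ).K = ⊤ := iInf_of_empty (ι := Empty) _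

/-- (4) -/
theorem main_four (ι : Type) [Finite ι] (R : Set (FreeGroup ι)) (I : Type) [Finite I]
    (P : I → Type) [∀ i, Group (P i)] (A : Subgroup (PresentedGroup R)) (hA : A.FiniteIndex)
    (e : A ≃* (∀ i, P i)) (r : ℕ) (hH : ∀ i, RankBound (Factor e) r i) (s : ℕ)
    (w : Fin s → FreeGroup ι) (C : Fin s → SpecialLinearGroup (Fin r) ℂ)
    (hC : ∀ j z, IsEigenvalue (C j) z → ∃ m : ℕ, 0 < m ∧ z ^ m = 1) :
    ∃ L : IntermediateField ℚ ℂ, FiniteDimensional ℚ L ∧
      IsDense R L (YW R w C) ∧ IsDenseRep L (YW R w C) :=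
  rel_three ι R (emptyFamily _) I P A (by rw [emptyFamily_K]; exact le_top)
    (by rw [emptyFamily_K, Subgroup.relIndex_top_right]; exact hA.index_ne_zero) e r hH s w C
    (fun _ i => i.elim) hC

theorem rankBound_of_two {G : Type} [Group G] {I : Type} (H : I → Subgroup G) (r n : ℕ) (i : I)
    (hr : r < 2 * n) (h : n ≤ Nat.card {j // AreConj (H i) (H j)}) : RankBound H r i :=
  ⟨2, n, hr, smallRepsVS_two _, h⟩

theorem rankBound_of_solvable {G : Type} [Group G] {I : Type} [Finite I] (H : I → Subgroup G)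
    (r : ℕ) (i : I) (A : Subgroup (H i)) (hA : Group.IsSolvable A) (hA' : A.FiniteIndex) :
    RankBound H r i := by
  refine ⟨r + 1, 1, by omega, smallRepsVS_of_solvable _ A hA hA' _, ?_⟩
  have : Nonempty {j // AreConj (H i) (H j)} := ⟨⟨i, 1, fun x => by simp⟩⟩
  exact Nat.card_pos

end Vale.Agent.P002.R2.H53
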