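import Vale.Agent.P002.R2.H53.Main
import Vale.Agent.P002.R2.H53.DefsS
import Vale.Agent.P002.H2.MI

/-!
# Small constituents are typed
-/

namespace Vale.Agent.P002.R2.H53

open Module Matrix NumberField Vale.Agent.P002R.Orb Vale.Agent.P002.H326J Vale.Agent.P002.H2
  Vale.Agent.P002.H252

variable {ι : Type} {r s : ℕ}

/-- an irreducible subrepresentation on which some term of the derived series of a subgroup of
finite index of `O.K` acts trivially is typed -/
theorem hasType_of_triv (R : Set (FreeGroup ι)) (w : Fin s → FreeGroup ι)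
    (X : ι → SpecialLinearGroup (Fin r) ℂ) (hX : IsRep R X)
    (O : OrbFamily (PresentedGroup R)) (hO : ∀ j, O.IsPeripheral (PresentedGroup.mk R (w j)))
    (W : Submodule ℂ (Fin r → ℂ)) (hW : IsIrrSub X W)
    (hB : ∃ B : Subgroup (PresentedGroup R), B ≤ O.K ∧ B.relIndex O.K ≠ 0 ∧
      ∃ m : ℕ, ∀ x : FreeGroup ι, PresentedGroup.mk R x ∈ (derivedSeries B m).map B.subtype →
        ∀ v ∈ W, (FreeGroup.lift X x).1 *ᵥ v = v) :
    ∃ D : TypeDatum (PresentedGroup R),
      D.Valid (fun j => PresentedGroup.mk R (w j)) ∧ HasType D X W := by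
  have hWi : ∀ w, ∀ v ∈ W, (FreeGroup.lift X w).1 *ᵥ v ∈ W := fun w v hv => by
    have := (isInv_iff X W).1 hW.2.1 w v hv
    rwa [Matrix.toLin'_apply] at this
  obtain ⟨d, hd, e, σ, he, hr, heσ⟩ : ∃ (d : ℕ) (_ : 0 < d) (e : (Fin d → ℂ) →ₗ[ℂ] (Fin r → ℂ))
      (σ : FreeGroup ι →* Matrix (Fin d) (Fin d) ℂ), Function.Injective e ∧
      LinearMap.range e = W ∧ ∀ x v, (FreeGroup.lift X x).1 *ᵥ e v = e (σ x *ᵥ v) :=
    ⟨_, Nat.pos_of_ne_zero fun h => hW.1 (Submodule.finrank_eq_zero.1 h), exists_coord X W hWi⟩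
  have htriv : ∀ x, (∀ v ∈ W, (FreeGroup.lift X x).1 *ᵥ v = v) → σ x = 1 := by
    intro x hx
    apply Matrix.toLin'.injective
    refine LinearMap.ext fun v => he ?_
    rw [Matrix.toLin'_apply, Matrix.toLin'_apply, ← heσ, Matrix.one_mulVec]
    exact hx _ (hr ▸ LinearMap.mem_range_self e v)
  have hbot : ∀ y, PresentedGroup.mk R y ∈ (⊥ : Subgroup (PresentedGroup R)) → σ y = 1 := by
    intro y hy
    obtain ⟨f, hf⟩ : ∃ f : PresentedGroup R →* SpecialLinearGroup (Fin r) ℂ,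
        ∀ x, f (PresentedGroup.mk R x) = FreeGroup.lift X x :=
      ⟨PresentedGroup.toGroup hX, fun x => rfl⟩
    refine htriv y fun v _ => ?_
    rw [← hf, Subgroup.mem_bot.1 hy, map_one]
    exact Matrix.one_mulVec v
  obtain ⟨B, hB, hBi, m, hm⟩ := hB
  refine ⟨⟨d, O.K, ⊥, fun _ => (d : ℂ)⟩, ⟨inferInstance, bot_le, ⟨O, rfl, hO⟩, fun x => ?_⟩,
    e, σ, he, hr, heσ, hd, fun V hV => ?_, fun y hy => ?_, B, hB, hBi, m, fun x hx => ?_⟩
  · exact isIntegral_algebraMap (R := ℤ) (A := ℂ) (x := (d : ℤ)) |> fun h => by simpa using h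
  · -- irreducibility
    have h1 : V.map e ≤ W := by
      rw [← hr]
      exact LinearMap.map_le_range
    have h2 : IsInv X (V.map e) := by
      rw [isInv_iff]
      rintro x _ ⟨v, hv, rfl⟩
      rw [Matrix.toLin'_apply, matHom_apply, heσ]
      exact ⟨_, hV x v hv, rfl⟩
    rcases hW.2.2 _ h1 h2 with h3 | h3
    · refine Or.inl (eq_bot_iff.2 fun v hv => ?_)
      have h4 : e v ∈ V.map e := ⟨v, hv, rfl⟩
      rw [h3, Submodule.mem_bot] at h4
      exact (Submodule.mem_bot ℂ).2 (he (by rw [h4, map_zero]))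
    · refine Or.inr (eq_top_iff.2 fun v _ => ?_)
      have h4 : e v ∈ V.map e := h3 ▸ hr ▸ LinearMap.mem_range_self e v
      obtain ⟨u, hu, hu'⟩ := h4
      rwa [← he hu']
  · rw [hbot y hy, Matrix.trace_one, Fintype.card_fin]
  · rw [htriv x (hm x hx)]
    exact Submodule.subset_span ⟨1, by rw [map_one]; exact one_mem _, by rw [map_one]⟩

/-- the action on an invariant subspace -/
theorem exists_unitHom (R : Set (FreeGroup ι)) (X : ι → SpecialLinearGroup (Fin r) ℂ)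
    (hX : IsRep R X) (W : Submodule ℂ (Fin r → ℂ)) (hW : IsInv X W) :
    ∃ g : PresentedGroup R →* (End ℂ W)ˣ, ∀ (x : FreeGroup ι) (v : W),
      (((g (PresentedGroup.mk R x) : End ℂ W) v : W) : Fin r → ℂ) =
        (FreeGroup.lift X x).1 *ᵥ v.1 := by
  have hWi : ∀ w, ∀ v ∈ W, (FreeGroup.lift X w).1 *ᵥ v ∈ W := fun w v hv => by
    have := (isInv_iff X W).1 hW w v hv
    rwa [Matrix.toLin'_apply] at this
  obtain ⟨f, hf⟩ : ∃ f : PresentedGroup R →* SpecialLinearGroup (Fin r) ℂ,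
      ∀ x, f (PresentedGroup.mk R x) = FreeGroup.lift X x :=
    ⟨PresentedGroup.toGroup hX, fun x => rfl⟩
  have hfi : ∀ y : PresentedGroup R, ∀ v ∈ W, (f y).1 *ᵥ v ∈ W := by
    intro y v hv
    obtain ⟨x, rfl⟩ := PresentedGroup.mk_surjective R y
    rw [hf]
    exact hWi x v hv
  let g0 : PresentedGroup R →* End ℂ W :=
    { toFun := fun y => (Matrix.toLin' (f y).1).restrict (hfi y)
      map_one' := by
        refine LinearMap.ext fun v => Subtype.ext ?_
        change (f 1).1 *ᵥ v.1 = v.1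
        rw [map_one]
        exact Matrix.one_mulVec _
      map_mul' := fun x y => by
        refine LinearMap.ext fun v => Subtype.ext ?_
        change (f (x * y)).1 *ᵥ v.1 = (f x).1 *ᵥ ((f y).1 *ᵥ v.1)
        rw [map_mul, Matrix.mulVec_mulVec]
        rfl }
  refine ⟨g0.toHomUnits, fun x v => ?_⟩
  change (f (PresentedGroup.mk R x)).1 *ᵥ v.1 = _
  rw [hf]

theorem hasType_of_small (R : Set (FreeGroup ι)) (w : Fin s → FreeGroup ι)
    (X : ι → SpecialLinearGroup (Fin r) ℂ) (hX : IsRep R X) (W : Submodule ℂ (Fin r → ℂ))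
    (hW : IsIrrSub X W) (hs : IsSmall R w W) :
    ∃ D : TypeDatum (PresentedGroup R),
      D.Valid (fun j => PresentedGroup.mk R (w j)) ∧ HasType D X W := by
  obtain ⟨O, A, I, _, H, k, hO, hAK, hA, hc, hk, hH⟩ := hs
  refine hasType_of_triv R w X hX O hO W hW ?_
  obtain ⟨g, hg⟩ := exists_unitHom R X hX W hW.2.1
  obtain ⟨T, hT, hTs, hTi⟩ := map_vsolv' (Units.coeHom (End ℂ W)) Units.val_injective g H hc hH A k
    hk
  obtain ⟨m, hm⟩ := hTs.solvable
  refine ⟨A ⊓ T.comap g, inf_le_left.trans hAK, ?_, m, fun x hx v hv => ?_⟩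
  · rw [← Subgroup.relIndex_mul_relIndex _ A O.K inf_le_left hAK, Subgroup.inf_relIndex_left,
      Subgroup.relIndex_comap]
    exact mul_ne_zero hTi hA
  · rw [Dr_derived] at hx
    have h1 : g (PresentedGroup.mk R x) ∈ Dr T m := by
      have h2 : (A ⊓ T.comap g).map g ≤ T := by
        rintro _ ⟨y, hy, rfl⟩
        exact hy.2
      refine Dr_mono h2 m ?_
      rw [Dr_map]
      exact ⟨_, hx, rfl⟩
    rw [← Dr_derived, hm, Subgroup.map_bot, Subgroup.mem_bot] at h1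
    have h3 := hg x ⟨v, hv⟩
    rw [h1] at h3
    exact h3.symm

theorem isTyped_of_small (R : Set (FreeGroup ι)) (w : Fin s → FreeGroup ι)
    (X : ι → SpecialLinearGroup (Fin r) ℂ) (hX : IsRep R X) (h : IsTypedOrSmall R w X) :
    IsTyped R w X := fun W hW => (h W hW).elim (hasType_of_small R w X hX W hW) id

theorem RankBound.mono {G : Type} [Group G] {I : Type} {H : I → Subgroup G} {r r' : ℕ} {i : I}
    (h : RankBound H r i) (hr : r' ≤ r) : RankBound H r' i := by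
  obtain ⟨c, n, h1, h2, h3⟩ := h
  exact ⟨c, n, lt_of_le_of_lt hr h1, h2, h3⟩

/-- (2) -/
theorem main_mixed {R : Set (FreeGroup ι)} [Finite ι] (w : Fin s → FreeGroup ι)
    (C : Fin s → SpecialLinearGroup (Fin r) ℂ)
    (hC : ∀ j z, IsEigenvalue (C j) z → ∃ n : ℕ, 0 < n ∧ z ^ n = 1)
    (P : Set (MvPolynomial (ι × Fin r × Fin r) ℂ))
    (B : ℕ → Set (MvPolynomial (ι × Fin r × Fin r) ℂ))
    (hB : ∀ n, IsDenseIn (OpenIn (OpenIn (YW R w C) P) (B n)) (OpenIn (YW R w C) P))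
    (hT : ∀ X ∈ OpenIn (YW R w C) P, (∀ n, ∃ F ∈ B n, value F X ≠ 0) → IsTypedOrSmall R w X) :
    ∃ L : IntermediateField ℚ ℂ, FiniteDimensional ℚ L ∧
      IsDense R L (OpenIn (YW R w C) P) ∧ IsDenseRep L (OpenIn (YW R w C) P) :=
  uniform_open w C hC P B hB fun X hX h => isTyped_of_small R w X hX.1.1.1 (hT X hX h)

end Vale.Agent.P002.R2.H53
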